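import Vale.Agent.Lib.P037_helper52.Params

/-! A closed double exponential bound for the parameter `pΔ`. -/

namespace Vale.Agent.Lib.P037_helper52

/-- Polynomially bounded functions. -/
def PB (f : ℕ → ℕ) : Prop := ∃ C : ℕ, 1 ≤ C ∧ ∀ x, 1 ≤ x → f x ≤ (C * x) ^ C

lemma PB.const (c : ℕ) : PB (fun _ => c) := by
  refine ⟨c + 1, by omega, fun x hx => ?_⟩
  have h1 : c + 1 ≤ (c + 1) * x := Nat.le_mul_of_pos_right _ hx
  calc c ≤ (c + 1) * x := by omega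
    _ ≤ ((c + 1) * x) ^ (c + 1) := Nat.le_self_pow (by omega) _

lemma PB.id : PB (fun x => x) :=
  ⟨1, le_rfl, fun x _ => by simp⟩

lemma PB.mul {f g : ℕ → ℕ} (hf : PB f) (hg : PB g) : PB (fun x => f x * g x) := by
  obtain ⟨C1, h1, hf⟩ := hf
  obtain ⟨C2, h2, hg⟩ := hg
  refine ⟨C1 + C2, by omega, fun x hx => ?_⟩
  calc f x * g x ≤ (C1 * x) ^ C1 * (C2 * x) ^ C2 := Nat.mul_le_mul (hf x hx) (hg x hx)
    _ ≤ ((C1 + C2) * x) ^ C1 * ((C1 + C2) * x) ^ C2 := by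
        gcongr <;> omega
    _ = _ := by rw [pow_add]

lemma PB.add {f g : ℕ → ℕ} (hf : PB f) (hg : PB g) : PB (fun x => f x + g x) := by
  obtain ⟨C1, h1, hf⟩ := hf
  obtain ⟨C2, h2, hg⟩ := hg
  refine ⟨C1 + C2 + 1, by omega, fun x hx => ?_⟩
  set v := (C1 + C2 + 1) * x with hv
  have hv2 : 2 ≤ v := by
    have : C1 + C2 + 1 ≤ v := Nat.le_mul_of_pos_right _ hx
    omega
  have hA : (C1 * x) ^ C1 ≤ v ^ (C1 + C2) := by
    calc (C1 * x) ^ C1 ≤ v ^ C1 := by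
          apply Nat.pow_le_pow_left
          rw [hv]; gcongr; omega
      _ ≤ v ^ (C1 + C2) := Nat.pow_le_pow_right (by omega) (by omega)
  have hB : (C2 * x) ^ C2 ≤ v ^ (C1 + C2) := by
    calc (C2 * x) ^ C2 ≤ v ^ C2 := by
          apply Nat.pow_le_pow_left
          rw [hv]; gcongr; omega
      _ ≤ v ^ (C1 + C2) := Nat.pow_le_pow_right (by omega) (by omega)
  calc f x + g x ≤ (C1 * x) ^ C1 + (C2 * x) ^ C2 := Nat.add_le_add (hf x hx) (hg x hx)
    _ ≤ v ^ (C1 + C2) + v ^ (C1 + C2) := Nat.add_le_add hA hB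
    _ = 2 * v ^ (C1 + C2) := by ring
    _ ≤ v * v ^ (C1 + C2) := by gcongr
    _ = v ^ (C1 + C2 + 1) := by ring

lemma PB.pow {f : ℕ → ℕ} (hf : PB f) (m : ℕ) : PB (fun x => f x ^ m) := by
  induction m with
  | zero =>
    simpa using PB.const 1
  | succ m ih =>
    have := ih.mul hf
    simpa [pow_succ] using this

lemma PB.xgZ (k : ℕ) {f : ℕ → ℕ} (hf : PB f) : PB (fun x => gZ k (f x)) := by
  unfold Vale.Agent.Lib.P037_helper52.gZ
  exact (PB.const 16).mul ((((PB.const 2).mul hf).mul (PB.const _)).pow _)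

lemma PB.xgp (k : ℕ) {f : ℕ → ℕ} (hf : PB f) : PB (fun x => gp k (f x)) := by
  unfold Vale.Agent.Lib.P037_helper52.gp
  exact (hf.mul (PB.const _)).mul (PB.xgZ k hf)

lemma PB.xgr (k : ℕ) {f : ℕ → ℕ} (hf : PB f) : PB (fun x => gr k (f x)) := by
  unfold Vale.Agent.Lib.P037_helper52.gr
  exact (((PB.xgp k hf).add (PB.const 1)).pow _).add (PB.const 1)

lemma PB.xgt (k : ℕ) {f g : ℕ → ℕ} (hf : PB f) (hg : PB g) : PB (fun x => gt k (f x) (g x)) := by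
  unfold Vale.Agent.Lib.P037_helper52.gt
  exact ((PB.const 4).mul ((PB.xgr k hf).pow 2)).mul hg

lemma PB.xpF : PB pF := by
  unfold Vale.Agent.Lib.P037_helper52.pF
  exact (PB.const 16).mul PB.id

lemma PB.xpt (k : ℕ) : PB (fun E => pt k E) := by
  unfold Vale.Agent.Lib.P037_helper52.pt
  exact PB.xgt k ((PB.const 4).mul PB.xpF) PB.xpF

lemma PB.xpΘ (k : ℕ) : PB (fun E => pΘ k E) := by
  unfold Vale.Agent.Lib.P037_helper52.pΘ
  exact PB.xpF.mul (PB.xpt k)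

lemma PB.xpLL (k : ℕ) : PB (fun E => pLL k E) := by
  unfold Vale.Agent.Lib.P037_helper52.pLL
  exact (((PB.const 8).mul (PB.xpt k)).mul (PB.xpΘ k)).mul PB.xpF

lemma PB.xpY (k : ℕ) : PB (fun E => pY k E) := by
  unfold Vale.Agent.Lib.P037_helper52.pY
  exact ((PB.const 16).mul (PB.xpΘ k)).mul PB.xpF

/-- The shape of `pΔ` as a function of a single dominating number. -/
def GG (k x : ℕ) : ℕ := 32 * x * gt k x x * x * x ^ k * k * x
def GR (k x : ℕ) : ℕ := x ^ k * GG k x ^ k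
def GN (k x : ℕ) : ℕ := x * (4 * x * gt k x x + x + 1) + x ^ k * k * x
def GC (k x : ℕ) : ℕ := 2 * (gt k x x * x) ^ k
def GΔ (k x : ℕ) : ℕ := GN k x ^ (2 * k) + GC k x + GR k x

lemma PB.xGΔ (k : ℕ) : PB (GΔ k) := by
  have hx : PB (fun x => x) := PB.id
  have hq : PB (fun x => gt k x x) := PB.xgt k hx hx
  have hG : PB (GG k) := by
    unfold Vale.Agent.Lib.P037_helper52.GG
    exact ((((((PB.const 32).mul hx).mul hq).mul hx).mul (hx.pow k)).mul (PB.const k)).mul hx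
  have hR : PB (GR k) := by
    unfold Vale.Agent.Lib.P037_helper52.GR
    exact (hx.pow k).mul (hG.pow k)
  have hN : PB (GN k) := by
    unfold Vale.Agent.Lib.P037_helper52.GN
    exact (hx.mul ((((PB.const 4).mul hx).mul hq).add hx |>.add (PB.const 1))).add
      (((hx.pow k).mul (PB.const k)).mul hx)
  have hC : PB (GC k) := by
    unfold Vale.Agent.Lib.P037_helper52.GC
    exact (PB.const 2).mul ((hq.mul hx).pow k)
  unfold Vale.Agent.Lib.P037_helper52.GΔ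
  exact ((hN.pow (2 * k)).add hC).add hR

lemma gp_le_gr (k X : ℕ) (hk : 1 ≤ k) : gp k X ≤ gr k X := by
  unfold gr gD
  have h1 : 1 ≤ 4 * k ^ 2 := by
    have : 1 ≤ k ^ 2 := Nat.one_le_pow _ _ hk
    omega
  have h2 : gp k X + 1 ≤ (gp k X + 1) ^ (4 * k ^ 2) := Nat.le_self_pow (by omega) _
  unfold gD at *
  omega

lemma gr_gp_le (k X Y : ℕ) (hk : 1 ≤ k) (hY : 1 ≤ Y) : gr k X * gp k X ≤ gt k X Y := by
  unfold gt
  have h1 := gp_le_gr k X hk
  calc gr k X * gp k X ≤ gr k X * gr k X := by gcongr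
    _ = 1 * gr k X ^ 2 * 1 := by ring
    _ ≤ 4 * gr k X ^ 2 * Y := by gcongr; omega

section
variable {k E : ℕ} (hk : 1 ≤ k) (hE : 1 ≤ E)
include hk hE

lemma pΔ_le_GΔ : pΔ k E ≤ GΔ k (pXtop k E * pY k E * pΘ k E) := by
  have hF1 := pF_pos hE
  have ht1 := pt_pos (k := k) hE
  have hΘ1 := pΘ_pos (k := k) hE
  have hY1 := pY_pos (k := k) hE
  have hPi1 := pPi_pos hk hE
  set x := pXtop k E * pY k E * pΘ k E with hx
  have hX1 : 1 ≤ pXtop k E := by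
    unfold pXtop pX
    exact Nat.mul_pos (Nat.mul_pos (by norm_num) hF1) (Nat.mul_pos (Nat.mul_pos hPi1 ht1) hk)
  have hXx : pXtop k E ≤ x := by
    rw [hx, mul_assoc]
    exact Nat.le_mul_of_pos_right _ (Nat.mul_pos hY1 hΘ1)
  have hYx : pY k E ≤ x := by
    rw [hx]
    calc pY k E ≤ pXtop k E * pY k E := Nat.le_mul_of_pos_left _ hX1
      _ ≤ _ := Nat.le_mul_of_pos_right _ hΘ1
  have hΘx : pΘ k E ≤ x := by
    rw [hx]
    exact Nat.le_mul_of_pos_left _ (Nat.mul_pos hX1 hY1)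
  have hX4 : pXtop k E = 4 * pF E * (pPi k E * pt k E * k) := rfl
  have hItopeq : pItop k E = pPi k E * pt k E * k := rfl
  have hIx : pItop k E ≤ x := by
    refine le_trans ?_ hXx
    rw [hX4, hItopeq]
    exact Nat.le_mul_of_pos_left _ (Nat.mul_pos (by norm_num) hF1)
  have hPix : pPi k E ≤ x := by
    refine le_trans ?_ hIx
    rw [hItopeq, mul_assoc]
    exact Nat.le_mul_of_pos_right _ (Nat.mul_pos ht1 hk)
  have hFx : pF E ≤ x := by
    refine le_trans ?_ hXx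
    rw [hX4]
    calc pF E ≤ 4 * pF E := by omega
      _ ≤ _ := Nat.le_mul_of_pos_right _ (Nat.mul_pos (Nat.mul_pos hPi1 ht1) hk)
  have hQ : pQtop k E ≤ gt k x x := gt_mono k hXx hYx
  have hG : pG k E ≤ GG k x := by
    unfold pG GG
    gcongr
  have hR : pR k E ≤ GR k x := by
    unfold pR GR
    gcongr
  have hN : pN1 k E ≤ GN k x := by
    unfold pN1 GN
    gcongr
  have hC : pCl k E ≤ GC k x := by
    unfold pCl GC
    have h1 : gr k (pXtop k E) * gp k (pXtop k E) ≤ gt k x x :=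
      (gr_gp_le k _ (pY k E) hk hY1).trans (gt_mono k hXx hYx)
    gcongr
  unfold pΔ GΔ
  gcongr

/-- Bounds from a polynomial bound for `gt`. -/
lemma pQ_le (c w : ℕ) (hc : ∀ x, 1 ≤ x → gt k x x ≤ (c * x) ^ c) (hw : 1 ≤ w) :
    pQ k E w ≤ ((c * (4 * pF E * (pt k E * k) * pY k E)) * w) ^ c := by
  have hF1 := pF_pos hE
  have ht1 := pt_pos (k := k) hE
  have hY1 := pY_pos (k := k) hE
  have hX1 : 1 ≤ pX k E w := by
    unfold pX
    exact Nat.mul_pos (Nat.mul_pos (by norm_num) hF1) (Nat.mul_pos (Nat.mul_pos hw ht1) hk)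
  have h1 : pQ k E w ≤ gt k (pX k E w * pY k E) (pX k E w * pY k E) :=
    gt_mono k (Nat.le_mul_of_pos_right _ hY1) (Nat.le_mul_of_pos_left _ hX1)
  refine h1.trans ((hc _ (Nat.mul_pos hX1 hY1)).trans (le_of_eq ?_))
  unfold pX
  ring_nf

end

/-- `V i = A1 * pW i` grows like `V (i + 1) ≤ V i ^ B`. -/
lemma V_step {k E : ℕ} (hk : 1 ≤ k) (hE : 1 ≤ E) (c A0 : ℕ) (hA0 : 1 ≤ A0)
    (hQ : ∀ w, 1 ≤ w → pQ k E w ≤ (A0 * w) ^ c) (i : ℕ) :
    (4 * k * A0) * pW k E (i + 1) ≤ ((4 * k * A0) * pW k E i) ^ (c * pt k E + 2) := by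
  set W := pW k E i with hW
  have hW1 : 1 ≤ W := pW_pos hk hE i
  set V := (4 * k * A0) * W with hV
  have hk4 : 1 ≤ 4 * k := by omega
  have h1 : A0 * W ≤ V := by
    rw [hV, mul_assoc]
    exact Nat.le_mul_of_pos_left _ hk4
  have h2 : W * (4 * k) ≤ V := by
    rw [hV]
    calc W * (4 * k) = (4 * k) * W := by ring
      _ ≤ (4 * k * A0) * W := Nat.mul_le_mul_right _ (Nat.le_mul_of_pos_right _ hA0)
  have h3 : 4 * k * A0 ≤ V := Nat.le_mul_of_pos_right _ hW1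
  have hstep : pW k E (i + 1) = W * (4 * k * pQ k E W ^ pt k E) := rfl
  rw [hstep]
  calc (4 * k * A0) * (W * (4 * k * pQ k E W ^ pt k E))
      = (4 * k * A0) * ((W * (4 * k)) * pQ k E W ^ pt k E) := by ring
    _ ≤ V * (V * ((A0 * W) ^ c) ^ pt k E) := by
        gcongr
        exact hQ W hW1
    _ ≤ V * (V * (V ^ c) ^ pt k E) := by gcongr
    _ = V ^ (c * pt k E + 2) := by
        rw [← pow_mul]; ring

lemma V_le {k E : ℕ} (hk : 1 ≤ k) (hE : 1 ≤ E) (c A0 : ℕ) (hA0 : 1 ≤ A0)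
    (hQ : ∀ w, 1 ≤ w → pQ k E w ≤ (A0 * w) ^ c) (i : ℕ) :
    (4 * k * A0) * pW k E i ≤ (4 * k * A0) ^ ((c * pt k E + 2) ^ i) := by
  induction i with
  | zero => simp [pW]
  | succ i ih =>
    calc (4 * k * A0) * pW k E (i + 1) ≤ ((4 * k * A0) * pW k E i) ^ (c * pt k E + 2) :=
          V_step hk hE c A0 hA0 hQ i
      _ ≤ ((4 * k * A0) ^ ((c * pt k E + 2) ^ i)) ^ (c * pt k E + 2) :=
          Nat.pow_le_pow_left ih _
      _ = _ := by rw [← pow_mul, pow_succ]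

/-- The arithmetic of the last step. -/
lemma final_arith (P : ℕ) (hP : 2 ≤ P) :
    (P * P ^ (P ^ P)) ^ P ≤ 2 ^ (2 ^ ((P + 1) ^ 2)) := by
  have hlt : P ≤ 2 ^ P := Nat.lt_two_pow_self.le
  have hPP1 : 1 ≤ P ^ P := Nat.one_le_pow _ _ (by omega)
  have h1 : P ^ (P ^ P) ≤ 2 ^ (P * P ^ P) := by
    calc P ^ (P ^ P) ≤ (2 ^ P) ^ (P ^ P) := Nat.pow_le_pow_left hlt _
      _ = _ := by rw [← pow_mul]
  have h2 : P * P ^ (P ^ P) ≤ 2 ^ (2 * (P * P ^ P)) := by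
    have h3 : P ≤ P * P ^ P := Nat.le_mul_of_pos_right _ hPP1
    calc P * P ^ (P ^ P) ≤ 2 ^ P * 2 ^ (P * P ^ P) := Nat.mul_le_mul hlt h1
      _ = 2 ^ (P + P * P ^ P) := by rw [pow_add]
      _ ≤ _ := Nat.pow_le_pow_right (by norm_num) (by omega)
  have h4 : (P * P ^ (P ^ P)) ^ P ≤ 2 ^ (2 * (P * P ^ P) * P) := by
    calc _ ≤ (2 ^ (2 * (P * P ^ P))) ^ P := Nat.pow_le_pow_left h2 _
      _ = _ := by rw [← pow_mul]
  have h5 : 2 * (P * P ^ P) * P ≤ 2 ^ ((P + 1) ^ 2) := by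
    have h6 : P * P ^ P * P = P ^ (P + 2) := by ring
    have h7 : P ^ (P + 2) ≤ 2 ^ (P * (P + 2)) := by
      calc P ^ (P + 2) ≤ (2 ^ P) ^ (P + 2) := Nat.pow_le_pow_left hlt _
        _ = _ := by rw [← pow_mul]
    calc 2 * (P * P ^ P) * P = 2 * P ^ (P + 2) := by rw [← h6]; ring
      _ ≤ 2 * 2 ^ (P * (P + 2)) := by gcongr
      _ = 2 ^ ((P + 1) ^ 2) := by
          rw [← pow_succ']
          congr 1
          ring
  exact h4.trans (Nat.pow_le_pow_right (by norm_num) h5)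

/-- Closed form. -/
theorem pΔ_closed (k : ℕ) (hk : 1 ≤ k) :
    ∃ C : ℕ, 1 ≤ C ∧ ∀ E, 1 ≤ E → pΔ k E ≤ 2 ^ (2 ^ ((C * E) ^ C)) := by
  obtain ⟨c, hc1, hc⟩ := PB.xgt k PB.id PB.id
  obtain ⟨c2, hc21, hc2⟩ := PB.xGΔ k
  -- polynomial quantities
  let A0 : ℕ → ℕ := fun E => c * (4 * pF E * (pt k E * k) * pY k E)
  let A1 : ℕ → ℕ := fun E => 4 * k * A0 E
  let A3 : ℕ → ℕ := fun E => 4 * pF E * (pt k E * k) * pY k E * pΘ k E
  let B : ℕ → ℕ := fun E => c * pt k E + 2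
  let P : ℕ → ℕ := fun E => c2 * A3 E + A1 E + B E + pLL k E + c2
  have hA0 : PB A0 :=
    (PB.const c).mul ((((PB.const 4).mul PB.xpF).mul ((PB.xpt k).mul (PB.const k))).mul (PB.xpY k))
  have hA1 : PB A1 := ((PB.const 4).mul (PB.const k)).mul hA0
  have hA3 : PB A3 :=
    (((((PB.const 4).mul PB.xpF).mul ((PB.xpt k).mul (PB.const k))).mul (PB.xpY k)).mul (PB.xpΘ k))
  have hB : PB B := ((PB.const c).mul (PB.xpt k)).add (PB.const 2)
  have hP : PB P :=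
    ((((PB.const c2).mul hA3).add hA1).add hB |>.add (PB.xpLL k)).add (PB.const c2)
  obtain ⟨C, hC1, hC⟩ := (hP.add (PB.const 1)).pow 2
  refine ⟨C, hC1, fun E hE => ?_⟩
  have hF1 := pF_pos hE
  have ht1 := pt_pos (k := k) hE
  have hΘ1 := pΘ_pos (k := k) hE
  have hY1 := pY_pos (k := k) hE
  have hPi1 := pPi_pos hk hE
  have hA0E : 1 ≤ A0 E := by
    show 1 ≤ c * (4 * pF E * (pt k E * k) * pY k E)
    exact Nat.mul_pos hc1 (Nat.mul_pos (Nat.mul_pos (Nat.mul_pos (by norm_num) hF1)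
      (Nat.mul_pos ht1 hk)) hY1)
  have hA1E : 1 ≤ A1 E := Nat.mul_pos (Nat.mul_pos (by norm_num) hk) hA0E
  have hQ : ∀ w, 1 ≤ w → pQ k E w ≤ (A0 E * w) ^ c :=
    fun w hw => pQ_le hk hE c w (fun x hx => hc x hx) hw
  have hPi : A1 E * pPi k E ≤ A1 E ^ (B E ^ pLL k E) := V_le hk hE c (A0 E) hA0E hQ _
  have hPiP : pPi k E ≤ P E ^ (P E ^ P E) := by
    have hA1P : A1 E ≤ P E := by
      show A1 E ≤ c2 * A3 E + A1 E + B E + pLL k E + c2
      omega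
    have hBP : B E ≤ P E := by
      show B E ≤ c2 * A3 E + A1 E + B E + pLL k E + c2
      omega
    have hLP : pLL k E ≤ P E := by
      show pLL k E ≤ c2 * A3 E + A1 E + B E + pLL k E + c2
      omega
    have hP1 : 1 ≤ P E := by omega
    calc pPi k E ≤ A1 E * pPi k E := Nat.le_mul_of_pos_left _ hA1E
      _ ≤ A1 E ^ (B E ^ pLL k E) := hPi
      _ ≤ P E ^ (B E ^ pLL k E) := Nat.pow_le_pow_left hA1P _
      _ ≤ P E ^ (P E ^ P E) := by
          apply Nat.pow_le_pow_right hP1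
          calc B E ^ pLL k E ≤ P E ^ pLL k E := Nat.pow_le_pow_left hBP _
            _ ≤ P E ^ P E := Nat.pow_le_pow_right hP1 hLP
  have hx : pXtop k E * pY k E * pΘ k E = A3 E * pPi k E := by
    show (4 * pF E * (pPi k E * pt k E * k)) * pY k E * pΘ k E = _
    show _ = 4 * pF E * (pt k E * k) * pY k E * pΘ k E * pPi k E
    ring
  have hx1 : 1 ≤ A3 E * pPi k E := by
    apply Nat.mul_pos _ hPi1
    show 1 ≤ 4 * pF E * (pt k E * k) * pY k E * pΘ k E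
    exact Nat.mul_pos (Nat.mul_pos (Nat.mul_pos (Nat.mul_pos (by norm_num) hF1)
      (Nat.mul_pos ht1 hk)) hY1) hΘ1
  have h1 : pΔ k E ≤ (c2 * (A3 E * pPi k E)) ^ c2 := by
    have := pΔ_le_GΔ (k := k) (E := E) hk hE
    rw [hx] at this
    exact this.trans (hc2 _ hx1)
  have hP2 : 2 ≤ P E := by
    have h2 : 2 ≤ B E := by
      show 2 ≤ c * pt k E + 2
      omega
    show 2 ≤ c2 * A3 E + A1 E + B E + pLL k E + c2
    omega
  have h3 : c2 * (A3 E * pPi k E) ≤ P E * P E ^ (P E ^ P E) := by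
    calc c2 * (A3 E * pPi k E) = (c2 * A3 E) * pPi k E := by ring
      _ ≤ P E * P E ^ (P E ^ P E) := by
          apply Nat.mul_le_mul _ hPiP
          show c2 * A3 E ≤ c2 * A3 E + A1 E + B E + pLL k E + c2
          omega
  have hc2P : c2 ≤ P E := by
    show c2 ≤ c2 * A3 E + A1 E + B E + pLL k E + c2
    omega
  have hbase1 : 1 ≤ P E * P E ^ (P E ^ P E) :=
    Nat.mul_pos (by omega) (Nat.pow_pos (by omega))
  calc pΔ k E ≤ (c2 * (A3 E * pPi k E)) ^ c2 := h1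
    _ ≤ (P E * P E ^ (P E ^ P E)) ^ c2 := Nat.pow_le_pow_left h3 _
    _ ≤ (P E * P E ^ (P E ^ P E)) ^ P E := Nat.pow_le_pow_right hbase1 hc2P
    _ ≤ 2 ^ (2 ^ ((P E + 1) ^ 2)) := final_arith _ hP2
    _ ≤ 2 ^ (2 ^ ((C * E) ^ C)) := by
        apply Nat.pow_le_pow_right (by norm_num)
        apply Nat.pow_le_pow_right (by norm_num)
        exact hC E hE

end Vale.Agent.Lib.P037_helper52
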