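import Vale.Agent.Lib.P037_helper52.Energy

/-! Choice of `k` common cells in every unspoiled window, and the count of the rows served. -/

namespace Vale.Agent.Lib.P037_helper52

open Finset

variable {n : ℕ}

namespace Levels

variable (Lv : Levels)

/-- Good windows for a set: present, but not critical. -/
def Good (t Θ : ℕ) (S : Finset (Fin n)) (i w : ℕ) : Prop :=
  Lv.Pres Θ S i w ∧ ¬ Lv.Crit t Θ S i w

lemma cells (i : ℕ) (hi : i < Lv.L) {t Q k Θ : ℕ} (ht : 1 ≤ t) (hQ : 1 ≤ Q) (hΘ : 1 ≤ Θ)
    (ty : Fin n → Fin t) (U0 T : Finset (Fin n)) (col : Fin n → Fin Q)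
    (hρeq : Lv.ρ i = 4 * k * Q ^ t) (w : ℕ)
    (hunsp : ¬ Lv.l i ≤ 16 * Θ * cnt (Lv.l i) T w) :
    ∃ (J : Fin k → ℕ) (vec : Fin t → Fin Q), StrictMono J ∧ (∀ l, J l < Lv.ρ i) ∧
      ∀ a, Lv.Good t Θ (U0.filter (fun x => ty x = a)) i w → ∀ l,
        Lv.l (i + 1) ≤ 4 * Θ * Q * (U0.filter (fun u => u ∉ T ∧
          u.1 / Lv.l (i + 1) = w * Lv.ρ i + J l ∧ ty u = a ∧ col u = vec a)).card := by
  classical
  set ρ := Lv.ρ i with hρdef
  set l := Lv.l i with hldef
  set l' := Lv.l (i + 1) with hl'def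
  have hρ1 : 1 ≤ ρ := Lv.hρ i
  have hl'1 : 1 ≤ l' := Lv.hl (i + 1) (by omega)
  have hll : l = ρ * l' := Lv.hll i hi
  let S : Fin t → Finset (Fin n) := fun a => U0.filter (fun x => ty x = a)
  -- cells poor for some good type
  let Gd : Finset (Fin t) := univ.filter (fun a => Lv.Good t Θ (S a) i w)
  let BadP : Finset ℕ := Gd.biUnion (fun a => Lv.poorCells (S a) i w)
  have hBadP : 2 * BadP.card ≤ ρ := by
    have h1 : ∀ a ∈ Gd, 2 * t * (Lv.poorCells (S a) i w).card ≤ ρ := by
      intro a ha
      have hg : Lv.Good t Θ (S a) i w := (mem_filter.1 ha).2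
      by_contra hcon
      push Not at hcon
      exact hg.2 ⟨hg.1, hcon.le⟩
    have h2 : 2 * t * BadP.card ≤ t * ρ := by
      calc 2 * t * BadP.card ≤ 2 * t * ∑ a ∈ Gd, (Lv.poorCells (S a) i w).card := by
            gcongr
            exact card_biUnion_le
        _ = ∑ a ∈ Gd, 2 * t * (Lv.poorCells (S a) i w).card := by rw [mul_sum]
        _ ≤ ∑ _a ∈ Gd, ρ := sum_le_sum h1
        _ = Gd.card * ρ := by simp
        _ ≤ t * ρ := by
            gcongr
            calc Gd.card ≤ (univ : Finset (Fin t)).card := card_le_card (subset_univ _)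
              _ = t := by simp
    have h3 : t * (2 * BadP.card) ≤ t * ρ := by
      calc _ = 2 * t * BadP.card := by ring
        _ ≤ _ := h2
    exact Nat.le_of_mul_le_mul_left h3 ht
  -- cells with many thin rows
  let BadT : Finset ℕ := (range ρ).filter (fun j => l' ≤ 4 * Θ * cnt l' T (w * ρ + j))
  have hBadT : 4 * BadT.card ≤ ρ := by
    have h1 : BadT.card * l' ≤ 4 * Θ * cnt l T w := by
      rw [hll, cnt_split ρ l' hρ1, mul_sum]
      calc BadT.card * l' = ∑ _j ∈ BadT, l' := by simp
        _ ≤ ∑ j ∈ BadT, 4 * Θ * cnt l' T (w * ρ + j) :=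
            sum_le_sum (fun j hj => (mem_filter.1 hj).2)
        _ ≤ _ := sum_le_sum_of_subset (filter_subset _ _)
    have h2 : 4 * BadT.card * l' < ρ * l' := by
      rw [← hll]
      push Not at hunsp
      calc 4 * BadT.card * l' = 4 * (BadT.card * l') := by ring
        _ ≤ 4 * (4 * Θ * cnt l T w) := by gcongr
        _ = 16 * Θ * cnt l T w := by ring
        _ < l := hunsp
    exact (Nat.lt_of_mul_lt_mul_right h2).le
  let Full : Finset ℕ := (range ρ) \ (BadP ∪ BadT)
  have hFull : k * Q ^ t ≤ Full.card := by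
    have h1 : ρ ≤ Full.card + (BadP ∪ BadT).card := by
      have : range ρ ⊆ Full ∪ (BadP ∪ BadT) := by
        intro j hj
        by_cases hj' : j ∈ BadP ∪ BadT
        · exact mem_union_right _ hj'
        · exact mem_union_left _ (mem_sdiff.2 ⟨hj, hj'⟩)
      calc ρ = (range ρ).card := by simp
        _ ≤ _ := (card_le_card this).trans (card_union_le _ _)
    have h2 := card_union_le BadP BadT
    have h3 : 4 * Full.card ≥ ρ := by omega
    rw [hρeq] at h3
    have h4 : 4 * (k * Q ^ t) ≤ 4 * Full.card := by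
      calc _ = 4 * k * Q ^ t := by ring
        _ ≤ _ := h3
    omega
  -- the colour of a type in a full cell
  have hcolour : ∀ (j : ℕ) (a : Fin t), ∃ g : Fin Q, j ∈ Full → a ∈ Gd →
      l' ≤ 4 * Θ * Q * (U0.filter (fun u => u ∉ T ∧
          u.1 / l' = w * ρ + j ∧ ty u = a ∧ col u = g)).card := by
    intro j a
    by_cases hj : j ∈ Full ∧ a ∈ Gd
    · obtain ⟨hjF, haG⟩ := hj
      have hg : Lv.Good t Θ (S a) i w := (mem_filter.1 haG).2
      have hjr : j ∈ range ρ := (mem_sdiff.1 hjF).1
      have hnotP : j ∉ BadP := fun h => (mem_sdiff.1 hjF).2 (mem_union_left _ h)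
      have hnotT : j ∉ BadT := fun h => (mem_sdiff.1 hjF).2 (mem_union_right _ h)
      have hnp : ¬ Lv.Poor (S a) i w j := by
        intro hp
        exact hnotP (mem_biUnion.2 ⟨a, haG, by
          unfold poorCells
          exact mem_filter.2 ⟨hjr, hp⟩⟩)
      have hnt : 4 * Θ * cnt l' T (w * ρ + j) < l' := by
        by_contra hcon
        push Not at hcon
        exact hnotT (mem_filter.2 ⟨hjr, hcon⟩)
      set c' := cnt l' (S a) (w * ρ + j) with hc'
      have h1 : cnt l (S a) w ≤ 2 * ρ * c' := by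
        have : ¬ 2 * ρ * c' < cnt l (S a) w := hnp
        omega
      have h2 : l ≤ Θ * cnt l (S a) w := hg.1
      have h3 : l' ≤ 2 * Θ * c' := by
        have h4 : ρ * l' ≤ ρ * (2 * Θ * c') := by
          calc ρ * l' = l := hll.symm
            _ ≤ Θ * cnt l (S a) w := h2
            _ ≤ Θ * (2 * ρ * c') := by gcongr
            _ = _ := by ring
        exact Nat.le_of_mul_le_mul_left h4 hρ1
      let M := U0.filter (fun u => u ∉ T ∧ u.1 / l' = w * ρ + j ∧ ty u = a)
      have h5 : c' ≤ M.card + cnt l' T (w * ρ + j) := by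
        rw [hc']
        unfold cnt
        refine le_trans (card_le_card ?_) (card_union_le _ _)
        intro u hu
        simp only [S, mem_filter] at hu
        simp only [M, mem_union, mem_filter]
        by_cases huT : u ∈ T
        · exact Or.inr ⟨huT, hu.2⟩
        · exact Or.inl ⟨hu.1.1, huT, hu.2, hu.1.2⟩
      have h6 : l' ≤ 4 * Θ * M.card := by
        have h7 : 4 * Θ * c' ≤ 4 * Θ * M.card + 4 * Θ * cnt l' T (w * ρ + j) := by
          rw [← mul_add]; gcongr
        have h8 : 2 * l' ≤ 4 * Θ * c' := by nlinarith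
        omega
      -- pigeonhole on colours
      have hFinQ : (univ : Finset (Fin Q)).Nonempty := ⟨⟨0, hQ⟩, mem_univ _⟩
      have hsumfib : M.card = ∑ g : Fin Q, (M.filter (fun u => col u = g)).card :=
        card_eq_sum_card_fiberwise (fun _ _ => mem_coe.2 (mem_univ _))
      obtain ⟨g', -, hg'⟩ := exists_max_image (univ : Finset (Fin Q))
        (fun g => (M.filter (fun u => col u = g)).card) hFinQ
      have hle : M.card ≤ Q * (M.filter (fun u => col u = g')).card := by
        calc M.card = ∑ g : Fin Q, (M.filter (fun u => col u = g)).card := hsumfib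
          _ ≤ ∑ _g : Fin Q, (M.filter (fun u => col u = g')).card :=
              sum_le_sum (fun g hg => hg' g hg)
          _ = _ := by simp
      refine ⟨g', fun _ _ => ?_⟩
      have heq : (U0.filter (fun u => u ∉ T ∧ u.1 / l' = w * ρ + j ∧ ty u = a ∧ col u = g')) =
          M.filter (fun u => col u = g') := by
        ext u
        simp only [M, mem_filter]
        tauto
      rw [heq]
      calc l' ≤ 4 * Θ * M.card := h6
        _ ≤ 4 * Θ * (Q * (M.filter (fun u => col u = g')).card) := by gcongr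
        _ = _ := by ring
    · refine ⟨⟨0, hQ⟩, fun h1 h2 => absurd ⟨h1, h2⟩ hj⟩
  choose g hg using hcolour
  -- pigeonhole on colour vectors
  let vecof : ℕ → (Fin t → Fin Q) := fun j a => g j a
  have hne : (univ : Finset (Fin t → Fin Q)).Nonempty := ⟨fun _ => ⟨0, hQ⟩, mem_univ _⟩
  obtain ⟨vec, -, hvec⟩ := exists_le_card_fiber_of_mul_le_card_of_maps_to
    (s := Full) (t := (univ : Finset (Fin t → Fin Q))) (f := vecof) (fun _ _ => mem_univ _) hne
    (n := k) (by
      simp only [card_univ, Fintype.card_fun, Fintype.card_fin]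
      rw [mul_comm]
      exact hFull)
  obtain ⟨Js, hJs, hJc⟩ := exists_subset_card_eq hvec
  let J : Fin k ↪o ℕ := Js.orderEmbOfFin hJc
  have hJmem : ∀ l, J l ∈ Js := fun l => orderEmbOfFin_mem Js hJc l
  have hJF : ∀ l, J l ∈ Full ∧ vecof (J l) = vec := by
    intro l
    have := hJs (hJmem l)
    exact mem_filter.1 this
  refine ⟨J, vec, J.strictMono, ?_, ?_⟩
  · intro l
    exact mem_range.1 (mem_sdiff.1 (hJF l).1).1
  · intro a ha l
    have haG : a ∈ Gd := mem_filter.2 ⟨mem_univ _, ha⟩
    have h1 := hg (J l) a (hJF l).1 haG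
    have h2 : g (J l) a = vec a := congrFun (hJF l).2 a
    rw [h2] at h1
    exact h1

open Classical in
/-- The rows not served at a given level are few. -/
lemma absent_count (i : ℕ) {t Θ : ℕ} (hi : i ≤ Lv.L) (ty : Fin n → Fin t) (U0 : Finset (Fin n)) :
    Θ * (U0.filter (fun x : Fin n => x.1 / Lv.l i < Lv.W i ∧
      ¬ Lv.Pres Θ (U0.filter (fun y => ty y = ty x)) i (x.1 / Lv.l i))).card ≤ t * Lv.l 0 := by
  classical
  set l := Lv.l i with hl
  set W := Lv.W i with hW
  let Ab := U0.filter (fun x : Fin n => x.1 / l < W ∧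
      ¬ Lv.Pres Θ (U0.filter (fun y => ty y = ty x)) i (x.1 / l))
  have hsub : Ab ⊆ (univ : Finset (Fin t)).biUnion (fun a =>
      ((range W).filter (fun w => ¬ Lv.Pres Θ (U0.filter (fun y => ty y = a)) i w)).biUnion (fun w =>
        (U0.filter (fun y => ty y = a)).filter (fun x : Fin n => x.1 / l = w))) := by
    intro x hx
    simp only [Ab, mem_filter] at hx
    simp only [mem_biUnion, mem_univ, true_and, mem_filter, mem_range]
    exact ⟨ty x, x.1 / l, ⟨hx.2.1, hx.2.2⟩, ⟨hx.1, rfl⟩, rfl⟩
  have hone : ∀ a : Fin t, Θ * (((range W).filter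
      (fun w => ¬ Lv.Pres Θ (U0.filter (fun y => ty y = a)) i w)).biUnion (fun w =>
        (U0.filter (fun y => ty y = a)).filter (fun x : Fin n => x.1 / l = w))).card ≤ W * l := by
    intro a
    calc _ ≤ Θ * ∑ w ∈ (range W).filter (fun w => ¬ Lv.Pres Θ (U0.filter (fun y => ty y = a)) i w),
          ((U0.filter (fun y => ty y = a)).filter (fun x : Fin n => x.1 / l = w)).card := by
          gcongr
          exact card_biUnion_le
      _ = ∑ w ∈ (range W).filter (fun w => ¬ Lv.Pres Θ (U0.filter (fun y => ty y = a)) i w),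
          Θ * ((U0.filter (fun y => ty y = a)).filter (fun x : Fin n => x.1 / l = w)).card := by
          rw [mul_sum]
      _ ≤ ∑ _w ∈ (range W).filter (fun w => ¬ Lv.Pres Θ (U0.filter (fun y => ty y = a)) i w), l := by
          apply sum_le_sum
          intro w hw
          have h1 := (mem_filter.1 hw).2
          unfold Pres at h1
          push Not at h1
          exact h1.le
      _ = ((range W).filter (fun w => ¬ Lv.Pres Θ (U0.filter (fun y => ty y = a)) i w)).card * l := by
          simp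
      _ ≤ (range W).card * l := by
          gcongr
          exact filter_subset _ _
      _ = W * l := by simp
  calc Θ * Ab.card ≤ Θ * ∑ a : Fin t, (((range W).filter
      (fun w => ¬ Lv.Pres Θ (U0.filter (fun y => ty y = a)) i w)).biUnion (fun w =>
        (U0.filter (fun y => ty y = a)).filter (fun x : Fin n => x.1 / l = w))).card := by
        gcongr
        exact (card_le_card hsub).trans card_biUnion_le
    _ = ∑ a : Fin t, Θ * (((range W).filter
      (fun w => ¬ Lv.Pres Θ (U0.filter (fun y => ty y = a)) i w)).biUnion (fun w =>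
        (U0.filter (fun y => ty y = a)).filter (fun x : Fin n => x.1 / l = w))).card := by
        rw [mul_sum]
    _ ≤ ∑ _a : Fin t, W * l := sum_le_sum (fun a _ => hone a)
    _ = t * (W * l) := by simp
    _ = _ := by rw [Lv.W_mul_l i hi]

open Classical in
lemma crit_count (i : ℕ) {t Θ : ℕ} (ty : Fin n → Fin t) (U0 : Finset (Fin n)) :
    (U0.filter (fun x : Fin n => x.1 / Lv.l i < Lv.W i ∧
      Lv.Crit t Θ (U0.filter (fun y => ty y = ty x)) i (x.1 / Lv.l i))).card ≤
      ∑ a : Fin t, Lv.critMass t Θ (U0.filter (fun y => ty y = a)) i := by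
  classical
  set l := Lv.l i with hl
  set W := Lv.W i with hW
  have hsub : (U0.filter (fun x : Fin n => x.1 / l < W ∧
      Lv.Crit t Θ (U0.filter (fun y => ty y = ty x)) i (x.1 / l))) ⊆
      (univ : Finset (Fin t)).biUnion (fun a =>
      ((range W).filter (fun w => Lv.Crit t Θ (U0.filter (fun y => ty y = a)) i w)).biUnion (fun w =>
        (U0.filter (fun y => ty y = a)).filter (fun x : Fin n => x.1 / l = w))) := by
    intro x hx
    simp only [mem_filter] at hx
    simp only [mem_biUnion, mem_univ, true_and, mem_filter, mem_range]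
    exact ⟨ty x, x.1 / l, ⟨hx.2.1, hx.2.2⟩, ⟨hx.1, rfl⟩, rfl⟩
  refine (card_le_card hsub).trans (card_biUnion_le.trans (sum_le_sum fun a _ => ?_))
  unfold critMass
  refine card_biUnion_le.trans (le_of_eq ?_)
  apply sum_congr
  · rfl
  · intro w _
    rfl

lemma spoil_count (i : ℕ) {Θ : ℕ} (hi : i ≤ Lv.L) (T : Finset (Fin n)) :
    ((univ : Finset (Fin n)).filter (fun x : Fin n => x.1 / Lv.l i < Lv.W i ∧
      Lv.l i ≤ 16 * Θ * cnt (Lv.l i) T (x.1 / Lv.l i))).card ≤ 16 * Θ * T.card := by
  classical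
  set l := Lv.l i with hl
  set W := Lv.W i with hW
  have hl1 : 1 ≤ l := Lv.hl i hi
  let Sp := (range W).filter (fun w => l ≤ 16 * Θ * cnt l T w)
  have hsub : ((univ : Finset (Fin n)).filter (fun x : Fin n => x.1 / l < W ∧
      l ≤ 16 * Θ * cnt l T (x.1 / l))) ⊆ Sp.biUnion (fun w =>
        (univ : Finset (Fin n)).filter (fun x : Fin n => x.1 / l = w)) := by
    intro x hx
    simp only [mem_filter, mem_univ, true_and] at hx
    simp only [mem_biUnion, mem_filter, mem_univ, true_and, Sp, mem_range]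
    exact ⟨x.1 / l, ⟨hx.1, hx.2⟩, rfl⟩
  calc _ ≤ ∑ w ∈ Sp, cnt l univ w := (card_le_card hsub).trans card_biUnion_le
    _ ≤ ∑ _w ∈ Sp, l := sum_le_sum (fun w _ => cnt_le l hl1 _ _)
    _ ≤ ∑ w ∈ Sp, 16 * Θ * cnt l T w := sum_le_sum (fun w hw => (mem_filter.1 hw).2)
    _ = 16 * Θ * ∑ w ∈ Sp, cnt l T w := by rw [mul_sum]
    _ ≤ 16 * Θ * ∑ w ∈ range W, cnt l T w := by
        gcongr
        exact filter_subset _ _
    _ ≤ _ := by
        gcongr
        exact sum_cnt_le _ _ _

/-- Choice of a level with small critical mass. -/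
lemma pick_level {t Θ F : ℕ} (hF : 1 ≤ F) (hL : Lv.L = 8 * t * Θ * F) (hLpos : 1 ≤ Lv.L)
    (ty : Fin n → Fin t) (U0 : Finset (Fin n)) :
    ∃ i < Lv.L, F * ∑ a : Fin t, Lv.critMass t Θ (U0.filter (fun y => ty y = a)) i ≤ n := by
  classical
  by_contra hcon
  push Not at hcon
  have h1 : ∑ i ∈ range Lv.L, ∑ a : Fin t, Lv.critMass t Θ (U0.filter (fun y => ty y = a)) i
      ≤ 8 * t * Θ * n := by
    rw [sum_comm]
    calc _ ≤ ∑ a : Fin t, 8 * t * Θ * (U0.filter (fun y => ty y = a)).card :=
          sum_le_sum (fun a _ => Lv.sum_critMass_le t Θ _)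
      _ = 8 * t * Θ * ∑ a : Fin t, (U0.filter (fun y => ty y = a)).card := by rw [mul_sum]
      _ = 8 * t * Θ * U0.card := by
          congr 1
          exact (card_eq_sum_card_fiberwise (fun _ _ => mem_coe.2 (mem_univ _))).symm
      _ ≤ 8 * t * Θ * n := by
          gcongr
          calc _ ≤ (univ : Finset (Fin n)).card := card_le_card (subset_univ _)
            _ = n := by simp
  have h2 : Lv.L * n < F * ∑ i ∈ range Lv.L, ∑ a : Fin t,
      Lv.critMass t Θ (U0.filter (fun y => ty y = a)) i := by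
    rw [mul_sum]
    calc Lv.L * n = ∑ _i ∈ range Lv.L, n := by simp
      _ < _ := sum_lt_sum_of_nonempty (by simpa using (by omega : Lv.L ≠ 0))
          (fun i hi => hcon i (mem_range.1 hi))
  have h3 : F * ∑ i ∈ range Lv.L, ∑ a : Fin t,
      Lv.critMass t Θ (U0.filter (fun y => ty y = a)) i ≤ F * (8 * t * Θ * n) := by
    gcongr
  have h4 : F * (8 * t * Θ * n) = Lv.L * n := by rw [hL]; ring
  omega

end Levels

end Vale.Agent.Lib.P037_helper52
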