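import Vale.Agent.Lib.P037_helper52.Sample

/-! Few copies give a clustering of most rows at any prescribed radius into polynomially
many clusters. -/

namespace Vale.Agent.Lib.P037_helper52

open Finset
open Vale.Agent.Lib.P037

def gD (k : ℕ) : ℕ := 4 * k ^ 2
def gZ (k X : ℕ) : ℕ := 16 * (2 * X * (2 * gD k + 1)) ^ (2 * gD k)
def gp (k X : ℕ) : ℕ := X * (2 * gD k + 1) * gZ k X
def gr (k X : ℕ) : ℕ := (gp k X + 1) ^ gD k + 1
def gt (k X Y : ℕ) : ℕ := 4 * gr k X ^ 2 * Y

lemma bern_aux (a m : ℕ) : a ^ m * (a + m) ≤ a * (a + 1) ^ m := by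
  induction m with
  | zero => simp
  | succ m ih =>
    calc a ^ (m + 1) * (a + (m + 1)) = a ^ m * (a * (a + m + 1)) := by ring
      _ ≤ a ^ m * ((a + m) * (a + 1)) := Nat.mul_le_mul_left _ (by nlinarith)
      _ = (a ^ m * (a + m)) * (a + 1) := by ring
      _ ≤ (a * (a + 1) ^ m) * (a + 1) := by gcongr
      _ = a * (a + 1) ^ (m + 1) := by ring

lemma bern_block (a Z : ℕ) (hZ : 1 ≤ Z) :
    (1 + Z) * a ^ ((a + 1) * Z) ≤ (a + 1) ^ ((a + 1) * Z) := by
  rcases Nat.eq_zero_or_pos a with h | h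
  · subst h
    have : Z ≠ 0 := by omega
    simp [this]
  · have h1 := bern_aux a ((a + 1) * Z)
    have h2 : a * (1 + Z) ≤ a + (a + 1) * Z := by nlinarith
    have h3 : a * ((1 + Z) * a ^ ((a + 1) * Z)) ≤ a * (a + 1) ^ ((a + 1) * Z) := by
      calc a * ((1 + Z) * a ^ ((a + 1) * Z)) = a ^ ((a + 1) * Z) * (a * (1 + Z)) := by ring
        _ ≤ a ^ ((a + 1) * Z) * (a + (a + 1) * Z) := by gcongr
        _ ≤ _ := h1
    exact Nat.le_of_mul_le_mul_left h3 h

lemma gZ_pos (k X : ℕ) (hX : 1 ≤ X) : 1 ≤ gZ k X := by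
  unfold gZ
  have : 0 < (2 * X * (2 * gD k + 1)) ^ (2 * gD k) := by positivity
  omega

lemma gp_pos (k X : ℕ) (hX : 1 ≤ X) : 1 ≤ gp k X := by
  unfold gp
  have := gZ_pos k X hX
  exact Nat.succ_le_of_lt (Nat.mul_pos (Nat.mul_pos hX (by omega)) this)

lemma far_num (k X : ℕ) (hX : 1 ≤ X) :
    4 * gr k X ^ 2 * (X - 1) ^ gp k X ≤ X ^ gp k X := by
  obtain ⟨a, rfl⟩ : ∃ a, X = a + 1 := ⟨X - 1, by omega⟩
  simp only [Nat.add_sub_cancel]
  set D := gD k with hD
  set Z := gZ k (a + 1) with hZ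
  set p := gp k (a + 1) with hp
  have hZpos : 1 ≤ Z := gZ_pos k _ (by omega)
  have hppos : 1 ≤ p := gp_pos k _ (by omega)
  have hpe : p = (a + 1) * Z * (2 * D + 1) := by
    rw [hp]; unfold gp; rw [← hD, ← hZ]; ring
  have h1 : (1 + Z) ^ (2 * D + 1) * a ^ p ≤ (a + 1) ^ p := by
    calc (1 + Z) ^ (2 * D + 1) * a ^ p
        = ((1 + Z) * a ^ ((a + 1) * Z)) ^ (2 * D + 1) := by rw [hpe, mul_pow, ← pow_mul]
      _ ≤ ((a + 1) ^ ((a + 1) * Z)) ^ (2 * D + 1) :=
          Nat.pow_le_pow_left (bern_block a Z hZpos) _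
      _ = (a + 1) ^ p := by rw [hpe, ← pow_mul]
  have h2 : 4 * gr k (a + 1) ^ 2 ≤ Z ^ (2 * D + 1) := by
    have hr : gr k (a + 1) ≤ 2 * (p + 1) ^ D := by
      unfold gr
      rw [← hp, ← hD]
      have : 1 ≤ (p + 1) ^ D := Nat.one_le_pow _ _ (by omega)
      omega
    have h3 : p + 1 ≤ (2 * (a + 1) * (2 * D + 1)) * Z := by
      rw [hpe]; nlinarith
    calc 4 * gr k (a + 1) ^ 2 ≤ 4 * (2 * (p + 1) ^ D) ^ 2 := by gcongr
      _ = 16 * (p + 1) ^ (2 * D) := by rw [mul_pow, ← pow_mul]; ring_nf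
      _ ≤ 16 * ((2 * (a + 1) * (2 * D + 1)) * Z) ^ (2 * D) := by gcongr
      _ = (16 * (2 * (a + 1) * (2 * D + 1)) ^ (2 * D)) * Z ^ (2 * D) := by
          rw [mul_pow]; ring
      _ = Z * Z ^ (2 * D) := by rw [hZ]; unfold gZ; rw [← hD]
      _ = Z ^ (2 * D + 1) := by ring
  calc 4 * gr k (a + 1) ^ 2 * a ^ p ≤ Z ^ (2 * D + 1) * a ^ p := by gcongr
    _ ≤ (1 + Z) ^ (2 * D + 1) * a ^ p := by gcongr; omega
    _ ≤ _ := h1

variable {n : ℕ}

/-- The set of rows whose ball of radius `n / X` is small. -/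
def thinRows (A : Fin n → Fin n → Bool) (X τ : ℕ) : Finset (Fin n) :=
  univ.filter (fun x => (ball A x (n / X)).card * τ < n)

lemma thin_small {k : ℕ} (hk : 1 ≤ k) (H : Fin k → Fin k → Bool) (A : Fin n → Fin n → Bool)
    (hn : 1 ≤ n) (X Y : ℕ) (hX : 1 ≤ X) (hY : 1 ≤ Y)
    (hN : 2 * (gr k X * gp k X * Y) ^ k * copies H A < n ^ (2 * k)) :
    Y * (thinRows A X (gt k X Y)).card < n := by
  by_contra hcon
  push Not at hcon
  set U := thinRows A X (gt k X Y) with hU
  set r := gr k X with hr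
  set p := gp k X with hp
  have hUpos : 0 < U.card := by
    rcases Nat.eq_zero_or_pos U.card with h | h
    · rw [h] at hcon; omega
    · exact h
  have hppos : 1 ≤ p := gp_pos k X hX
  have hkp : k ≤ p := by
    rw [hp]; unfold gp gD
    have h1 := gZ_pos k X hX
    have h2 : k ≤ 2 * (4 * k ^ 2) + 1 := by nlinarith
    calc k ≤ 1 * (2 * (4 * k ^ 2) + 1) * 1 := by omega
      _ ≤ _ := by gcongr
  have hr1 : (p + 1) ^ (4 * k ^ 2) < r := by
    rw [hr]; unfold gr; rw [← hp]; unfold gD; omega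
  have hp1 : 1 ≤ (p + 1) ^ (4 * k ^ 2) := Nat.one_le_pow _ _ (by omega)
  have hpr : p < r := by
    have : p + 1 ≤ (p + 1) ^ (4 * k ^ 2) := by
      apply Nat.le_self_pow
      have : 1 ≤ k ^ 2 := Nat.one_le_pow _ _ hk
      omega
    omega
  have hbound := sample_bound hk H A U r p (n / X) (n - n / X - 1) hr1 (by omega) hkp (by omega)
    (by
      intro y hy
      simp only [hU, thinRows, mem_filter, mem_univ, true_and] at hy
      unfold gt at hy
      rw [← hr] at hy
      have h1 : Y * (4 * r ^ 2 * (ball A y (n / X)).card) < Y * U.card := by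
        calc _ = (ball A y (n / X)).card * (4 * r ^ 2 * Y) := by ring
          _ < n := hy
          _ ≤ _ := hcon
      exact (Nat.lt_of_mul_lt_mul_left h1).le)
    (by omega)
    (by
      have hnum := far_num k X hX
      rw [← hr, ← hp] at hnum
      obtain ⟨a, rfl⟩ : ∃ a, X = a + 1 := ⟨X - 1, by omega⟩
      simp only [Nat.add_sub_cancel] at hnum
      have hlt : n < (a + 1) * (n / (a + 1) + 1) := Nat.lt_mul_div_succ n (by omega)
      set R := n / (a + 1) with hR
      have hgX : (a + 1) * (n - R - 1) ≤ a * n := by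
        by_cases hRn : R + 1 ≤ n
        · obtain ⟨g, hg⟩ : ∃ g, n = g + R + 1 := ⟨n - R - 1, by omega⟩
          have : n - R - 1 = g := by omega
          rw [this]
          rw [hg] at hlt ⊢
          nlinarith
        · have : n - R - 1 = 0 := by omega
          rw [this]; simp
      have h1 : ((a + 1) * (n - R - 1)) ^ p ≤ (a * n) ^ p := Nat.pow_le_pow_left hgX _
      rw [mul_pow, mul_pow] at h1
      have hpos : 0 < (a + 1) ^ p := by positivity
      apply Nat.le_of_mul_le_mul_left _ hpos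
      calc (a + 1) ^ p * (4 * r ^ 2 * (n - R - 1) ^ p)
          = 4 * r ^ 2 * ((a + 1) ^ p * (n - R - 1) ^ p) := by ring
        _ ≤ 4 * r ^ 2 * (a ^ p * n ^ p) := by gcongr
        _ = (4 * r ^ 2 * a ^ p) * n ^ p := by ring
        _ ≤ (a + 1) ^ p * n ^ p := by gcongr)
    hUpos (by omega)
  have h2 : (n * n) ^ k ≤ (Y * (U.card * n)) ^ k := by
    apply Nat.pow_le_pow_left
    calc n * n ≤ (Y * U.card) * n := by gcongr
      _ = _ := by ring
  have h3 : n ^ (2 * k) ≤ 2 * (r * p * Y) ^ k * copies H A := by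
    calc n ^ (2 * k) = (n * n) ^ k := by rw [pow_mul, sq]
      _ ≤ (Y * (U.card * n)) ^ k := h2
      _ = Y ^ k * (U.card * n) ^ k := by rw [mul_pow]
      _ ≤ Y ^ k * (2 * (r * p) ^ k * copies H A) := by gcongr
      _ = _ := by rw [mul_pow (r * p) Y]; ring
  omega

/-- The clustering statement. -/
theorem cluster {k : ℕ} (hk : 1 ≤ k) (H : Fin k → Fin k → Bool) (A : Fin n → Fin n → Bool)
    (hn : 1 ≤ n) (X Y : ℕ) (hX : 1 ≤ X) (hY : 1 ≤ Y)
    (hN : 2 * (gr k X * gp k X * Y) ^ k * copies H A < n ^ (2 * k)) :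
    ∃ (col : Fin n → Fin (gt k X Y)) (Thin : Finset (Fin n)), Y * Thin.card < n ∧
      ∀ x y, x ∉ Thin → y ∉ Thin → col x = col y → dst A x y ≤ 4 * (n / X) := by
  classical
  set τ := gt k X Y with hτ
  set R := n / X with hR
  have hτpos : 0 < τ := by
    rw [hτ]; unfold gt gr
    have : 1 ≤ ((gp k X + 1) ^ gD k + 1) := by omega
    positivity
  refine (fun hThin => ?_) (thin_small hk H A hn X Y hX hY hN)
  rw [← hτ, ← hR] at *
  -- a maximal separated family of thick rows
  let Thick := (univ : Finset (Fin n)) \ thinRows A X τ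
  let Fam := Thick.powerset.filter (fun M : Finset (Fin n) =>
    ∀ x ∈ M, ∀ y ∈ M, x ≠ y → 2 * R < dst A x y)
  have hFam : Fam.Nonempty := ⟨∅, by simp [Fam]⟩
  obtain ⟨M, hMF, hMmax⟩ := exists_max_image Fam card hFam
  simp only [Fam, mem_filter, mem_powerset] at hMF
  obtain ⟨hMsub, hMsep⟩ := hMF
  have hcenter : ∀ x ∈ Thick, ∃ y ∈ M, dst A x y ≤ 2 * R := by
    intro x hx
    by_contra hcon
    push Not at hcon
    have hxM : x ∉ M := by
      intro h
      have := hcon x h
      rw [dst_self] at this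
      omega
    have hins : insert x M ∈ Fam := by
      simp only [Fam, mem_filter, mem_powerset]
      refine ⟨insert_subset hx hMsub, ?_⟩
      intro u hu v hv huv
      rcases mem_insert.1 hu with rfl | hu'
      · rcases mem_insert.1 hv with rfl | hv'
        · exact absurd rfl huv
        · exact hcon v hv'
      · rcases mem_insert.1 hv with rfl | hv'
        · rw [dst_comm]; exact hcon u hu'
        · exact hMsep u hu' v hv' huv
    have := hMmax _ hins
    rw [card_insert_of_notMem hxM] at this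
    omega
  have hMcard : M.card ≤ τ := by
    have hdisj : (M : Set (Fin n)).PairwiseDisjoint (fun y => ball A y R) := by
      intro y hy y' hy' hne
      simp only [Function.onFun]
      rw [disjoint_left]
      intro z hz hz'
      simp only [ball, mem_filter, mem_univ, true_and] at hz hz'
      have h1 := hMsep y hy y' hy' hne
      have h2 := dst_triangle A y z y'
      rw [dst_comm A z y'] at h2
      omega
    have h1 : ∑ y ∈ M, (ball A y R).card ≤ n := by
      rw [← card_biUnion hdisj]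
      calc _ ≤ (univ : Finset (Fin n)).card := card_le_card (subset_univ _)
        _ = n := by simp
    have h2 : ∀ y ∈ M, n ≤ (ball A y R).card * τ := by
      intro y hy
      have := hMsub hy
      simp only [Thick, mem_sdiff, mem_univ, true_and, thinRows, mem_filter, not_lt] at this
      exact this
    have h3 : M.card * n ≤ n * τ := by
      calc M.card * n = ∑ _y ∈ M, n := by simp
        _ ≤ ∑ y ∈ M, (ball A y R).card * τ := sum_le_sum h2
        _ = (∑ y ∈ M, (ball A y R).card) * τ := by rw [sum_mul]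
        _ ≤ _ := by gcongr
    have hnpos : 0 < n := hn
    have h4 : n * M.card ≤ n * τ := by rwa [mul_comm] at h3
    exact Nat.le_of_mul_le_mul_left h4 hnpos
  -- the colouring
  have hch : ∀ x : Fin n, ∃ y : Fin n, x ∈ Thick → (y ∈ M ∧ dst A x y ≤ 2 * R) := by
    intro x
    by_cases hx : x ∈ Thick
    · obtain ⟨y, hy, hy2⟩ := hcenter x hx
      exact ⟨y, fun _ => ⟨hy, hy2⟩⟩
    · exact ⟨x, fun h => absurd h hx⟩
  choose cen hcen using hch
  let e : M ≃ Fin M.card := M.equivFin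
  let col : Fin n → Fin τ := fun x =>
    if hx : x ∈ Thick then Fin.castLE hMcard (e ⟨cen x, (hcen x hx).1⟩) else ⟨0, hτpos⟩
  refine ⟨col, thinRows A X τ, hThin, ?_⟩
  intro x y hx hy hxy
  have hx' : x ∈ Thick := by simp [Thick, hx]
  have hy' : y ∈ Thick := by simp [Thick, hy]
  simp only [col, dif_pos hx', dif_pos hy'] at hxy
  have h1 := Fin.castLE_injective hMcard hxy
  have h2 : cen x = cen y := by
    have := e.injective h1
    simpa using this
  have h3 := dst_triangle A x (cen x) y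
  have h4 := (hcen x hx').2
  have h5 := (hcen y hy').2
  rw [h2, dst_comm A (cen y) y] at h3
  rw [h2] at h4
  omega

end Vale.Agent.Lib.P037_helper52
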