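import Mathlib

/-! Energy increment for nested windows of `Fin n`: the total mass of critical windows over
all levels is bounded. -/

namespace Vale.Agent.Lib.P037_helper52

open Finset

variable {n : ℕ}

/-- Number of elements of `S` in window `w` of length `l`. -/
def cnt (l : ℕ) (S : Finset (Fin n)) (w : ℕ) : ℕ := (S.filter (fun x => x.1 / l = w)).card

lemma cnt_split (ρ l' : ℕ) (hρ : 1 ≤ ρ) (S : Finset (Fin n)) (w : ℕ) :
    cnt (ρ * l') S w = ∑ j ∈ range ρ, cnt l' S (w * ρ + j) := by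
  classical
  unfold cnt
  have hmaps : ∀ x ∈ S.filter (fun x => x.1 / (ρ * l') = w), x.1 / l' % ρ ∈ range ρ := by
    intro x _
    exact mem_range.2 (Nat.mod_lt _ hρ)
  rw [card_eq_sum_card_fiberwise hmaps]
  apply sum_congr rfl
  intro j hj
  have hj' := mem_range.1 hj
  congr 1
  ext x
  simp only [mem_filter]
  have h1 : x.1 / (ρ * l') = x.1 / l' / ρ := by
    rw [mul_comm, Nat.div_div_eq_div_mul]
  rw [h1]
  constructor
  · rintro ⟨⟨hx, h2⟩, h3⟩
    refine ⟨hx, ?_⟩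
    have := Nat.div_add_mod (x.1 / l') ρ
    rw [h2, h3] at this
    rw [← this]; ring
  · rintro ⟨hx, h2⟩
    refine ⟨⟨hx, ?_⟩, ?_⟩
    · rw [h2, mul_comm w ρ, Nat.mul_add_div (by omega), Nat.div_eq_of_lt hj']
      simp
    · rw [h2, mul_comm w ρ, Nat.mul_add_mod, Nat.mod_eq_of_lt hj']

lemma cnt_le (l : ℕ) (hl : 1 ≤ l) (S : Finset (Fin n)) (w : ℕ) : cnt l S w ≤ l := by
  classical
  unfold cnt
  have : (S.filter (fun x => x.1 / l = w)).card ≤ (range l).card := by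
    apply card_le_card_of_injOn (fun x => x.1 % l)
    · intro x _
      exact mem_coe.2 (mem_range.2 (Nat.mod_lt _ hl))
    · intro x hx y hy hxy
      simp only [coe_filter, Set.mem_ofPred_eq] at hx hy
      simp only at hxy
      apply Fin.ext
      rw [← Nat.div_add_mod x.1 l, ← Nat.div_add_mod y.1 l, hx.2, hy.2, hxy]
  simpa using this

lemma sum_cnt_le (l W : ℕ) (S : Finset (Fin n)) : ∑ w ∈ range W, cnt l S w ≤ S.card := by
  classical
  unfold cnt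
  rw [← card_biUnion]
  · apply card_le_card
    intro x hx
    obtain ⟨w, _, hw⟩ := mem_biUnion.1 hx
    exact (mem_filter.1 hw).1
  · intro w _ w' _ hne
    rw [Function.onFun, disjoint_left]
    intro x hx hx'
    exact hne ((mem_filter.1 hx).2.symm.trans (mem_filter.1 hx').2)

lemma sum_range_mul' (f : ℕ → ℕ) (W ρ : ℕ) :
    ∑ e ∈ range (W * ρ), f e = ∑ w ∈ range W, ∑ j ∈ range ρ, f (w * ρ + j) := by
  induction W with
  | zero => simp
  | succ W ih =>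
    rw [Nat.succ_mul, sum_range_add, ih, sum_range_succ]

/-- One-window energy inequalities. -/
lemma window_energy (ρ t : ℕ) (hρ : 1 ≤ ρ) (c : ℕ → ℕ) :
    (∑ j ∈ range ρ, c j) ^ 2 ≤ ρ * ∑ j ∈ range ρ, c j ^ 2 ∧
    (ρ ≤ 2 * t * ((range ρ).filter (fun j => 2 * ρ * c j < ∑ i ∈ range ρ, c i)).card →
      (8 * t + 1) * (∑ j ∈ range ρ, c j) ^ 2 ≤ 8 * t * (ρ * ∑ j ∈ range ρ, c j ^ 2)) := by
  classical
  set C := ∑ j ∈ range ρ, c j with hC
  set Sq := ∑ j ∈ range ρ, c j ^ 2 with hSq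
  have hid : ∑ j ∈ range ρ, ((ρ : ℤ) * c j - C) ^ 2 = (ρ : ℤ) * ((ρ : ℤ) * Sq - C ^ 2) := by
    have h1 : ∀ j ∈ range ρ, ((ρ : ℤ) * c j - C) ^ 2 =
        (ρ : ℤ) ^ 2 * (c j : ℤ) ^ 2 - 2 * ρ * C * (c j : ℤ) + (C : ℤ) ^ 2 := by
      intro j _; ring
    rw [sum_congr rfl h1, sum_add_distrib, sum_sub_distrib, ← mul_sum, ← mul_sum, sum_const,
      card_range]
    have h2 : ∑ j ∈ range ρ, (c j : ℤ) ^ 2 = (Sq : ℤ) := by rw [hSq]; push_cast; rfl
    have h3 : ∑ j ∈ range ρ, (c j : ℤ) = (C : ℤ) := by rw [hC]; push_cast; rfl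
    rw [h2, h3]
    simp only [nsmul_eq_mul]
    ring
  have hρz : (0 : ℤ) < ρ := by exact_mod_cast hρ
  constructor
  · have h1 : 0 ≤ (ρ : ℤ) * ((ρ : ℤ) * Sq - C ^ 2) := by
      rw [← hid]; exact sum_nonneg (fun j _ => sq_nonneg _)
    have h2 : 0 ≤ (ρ : ℤ) * Sq - C ^ 2 := nonneg_of_mul_nonneg_right h1 hρz
    have h3 : ((C : ℤ)) ^ 2 ≤ (ρ : ℤ) * Sq := by linarith
    exact_mod_cast h3
  · intro hpoor
    set P := (range ρ).filter (fun j => 2 * ρ * c j < C) with hP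
    have h1 : (P.card : ℤ) * (C : ℤ) ^ 2 ≤ 4 * ∑ j ∈ range ρ, ((ρ : ℤ) * c j - C) ^ 2 := by
      calc (P.card : ℤ) * (C : ℤ) ^ 2 = ∑ _j ∈ P, (C : ℤ) ^ 2 := by simp
        _ ≤ ∑ j ∈ P, 4 * ((ρ : ℤ) * c j - C) ^ 2 := by
            apply sum_le_sum
            intro j hj
            have hj' := (mem_filter.1 hj).2
            have h5 : (2 * ρ * c j : ℤ) < C := by exact_mod_cast hj'
            have h6 : (0 : ℤ) ≤ C := by positivity
            nlinarith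
        _ ≤ ∑ j ∈ range ρ, 4 * ((ρ : ℤ) * c j - C) ^ 2 := by
            apply sum_le_sum_of_subset_of_nonneg (filter_subset _ _)
            intro j _ _
            positivity
        _ = _ := by rw [mul_sum]
    have h2 : (ρ : ℤ) * (C : ℤ) ^ 2 ≤ (8 * t : ℤ) * ((ρ : ℤ) * ((ρ : ℤ) * Sq - C ^ 2)) := by
      have h3 : (ρ : ℤ) ≤ 2 * t * P.card := by exact_mod_cast hpoor
      have h4 : (0 : ℤ) ≤ (C : ℤ) ^ 2 := by positivity
      have ht : (0 : ℤ) ≤ t := by positivity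
      calc (ρ : ℤ) * (C : ℤ) ^ 2 ≤ (2 * t * P.card) * (C : ℤ) ^ 2 := by gcongr
        _ = (2 * t) * (P.card * (C : ℤ) ^ 2) := by ring
        _ ≤ (2 * t) * (4 * ∑ j ∈ range ρ, ((ρ : ℤ) * c j - C) ^ 2) := by gcongr
        _ = _ := by rw [hid]; ring
    have h5 : (C : ℤ) ^ 2 ≤ (8 * t : ℤ) * ((ρ : ℤ) * Sq - C ^ 2) := by
      have h6 : (ρ : ℤ) * (C : ℤ) ^ 2 ≤ (ρ : ℤ) * ((8 * t : ℤ) * ((ρ : ℤ) * Sq - C ^ 2)) := by
        calc _ ≤ _ := h2
          _ = _ := by ring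
      exact le_of_mul_le_mul_left h6 hρz
    have h7 : ((8 * t + 1 : ℤ)) * (C : ℤ) ^ 2 ≤ (8 * t : ℤ) * ((ρ : ℤ) * Sq) := by linarith
    exact_mod_cast h7

/-- Levels: a nested system of windows. `W i` windows of length `l i`, each window of level `i`
splits into `ρ i` windows of level `i + 1`. -/
structure Levels where
  L : ℕ
  W : ℕ → ℕ
  ρ : ℕ → ℕ
  l : ℕ → ℕ
  hρ : ∀ i, 1 ≤ ρ i
  hl : ∀ i, i ≤ L → 1 ≤ l i
  hW : ∀ i, W (i + 1) = W i * ρ i
  hW0 : W 0 = 1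
  hll : ∀ i, i < L → l i = ρ i * l (i + 1)

namespace Levels

variable (Lv : Levels)

lemma W_pos (i : ℕ) : 1 ≤ Lv.W i := by
  induction i with
  | zero => rw [Lv.hW0]
  | succ i ih =>
    rw [Lv.hW]
    exact Nat.mul_pos ih (Lv.hρ i)

/-- `W i * l i` does not depend on `i`. -/
lemma W_mul_l (i : ℕ) (hi : i ≤ Lv.L) : Lv.W i * Lv.l i = Lv.l 0 := by
  induction i with
  | zero => rw [Lv.hW0, one_mul]
  | succ i ih =>
    have h1 := ih (by omega)
    rw [← h1, Lv.hll i (by omega), Lv.hW]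
    ring

/-- A window of level `i` is present when it holds a fraction `1 / Θ` of its length,
poor cells have less than half the average, critical windows have many poor cells. -/
def Poor (S : Finset (Fin n)) (i w j : ℕ) : Prop :=
  2 * Lv.ρ i * cnt (Lv.l (i + 1)) S (w * Lv.ρ i + j) < cnt (Lv.l i) S w

def Pres (Θ : ℕ) (S : Finset (Fin n)) (i w : ℕ) : Prop := Lv.l i ≤ Θ * cnt (Lv.l i) S w

open Classical in
noncomputable def poorCells (S : Finset (Fin n)) (i w : ℕ) : Finset ℕ :=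
  (range (Lv.ρ i)).filter (fun j => Lv.Poor S i w j)

def Crit (t Θ : ℕ) (S : Finset (Fin n)) (i w : ℕ) : Prop :=
  Lv.Pres Θ S i w ∧ Lv.ρ i ≤ 2 * t * (Lv.poorCells S i w).card

open Classical in
/-- Mass of the critical windows at a level. -/
noncomputable def critMass (t Θ : ℕ) (S : Finset (Fin n)) (i : ℕ) : ℕ :=
  ∑ w ∈ (range (Lv.W i)).filter (fun w => Lv.Crit t Θ S i w), cnt (Lv.l i) S w

/-- Normalised energy at a level. -/
def En (S : Finset (Fin n)) (i : ℕ) : ℕ :=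
  Lv.W i * ∑ w ∈ range (Lv.W i), cnt (Lv.l i) S w ^ 2

lemma energy_step (t Θ : ℕ) (S : Finset (Fin n)) (i : ℕ) (hi : i < Lv.L) :
    8 * t * Θ * Lv.En S i + Lv.l 0 * Lv.critMass t Θ S i ≤ 8 * t * Θ * Lv.En S (i + 1) := by
  classical
  have hρ := Lv.hρ i
  have hsplit : ∀ w, cnt (Lv.l i) S w =
      ∑ j ∈ range (Lv.ρ i), cnt (Lv.l (i + 1)) S (w * Lv.ρ i + j) := by
    intro w
    rw [Lv.hll i hi]
    exact cnt_split _ _ hρ S w
  have hEn1 : Lv.En S (i + 1) = Lv.W i * Lv.ρ i * ∑ w ∈ range (Lv.W i),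
      ∑ j ∈ range (Lv.ρ i), cnt (Lv.l (i + 1)) S (w * Lv.ρ i + j) ^ 2 := by
    unfold En
    rw [Lv.hW, sum_range_mul' (fun e => cnt (Lv.l (i + 1)) S e ^ 2)]
  have hterm : ∀ w ∈ range (Lv.W i),
      8 * t * Θ * (Lv.W i * cnt (Lv.l i) S w ^ 2) +
        Lv.l 0 * (if Lv.Crit t Θ S i w then cnt (Lv.l i) S w else 0) ≤
      8 * t * Θ * (Lv.W i * (Lv.ρ i *
        ∑ j ∈ range (Lv.ρ i), cnt (Lv.l (i + 1)) S (w * Lv.ρ i + j) ^ 2)) := by
    intro w _
    set c : ℕ → ℕ := fun j => cnt (Lv.l (i + 1)) S (w * Lv.ρ i + j) with hc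
    have hC : cnt (Lv.l i) S w = ∑ j ∈ range (Lv.ρ i), c j := hsplit w
    obtain ⟨ha, hb⟩ := window_energy (Lv.ρ i) t hρ c
    rw [← hC] at ha hb
    set C := cnt (Lv.l i) S w with hCC
    set Q := ∑ j ∈ range (Lv.ρ i), c j ^ 2 with hQ
    by_cases hcr : Lv.Crit t Θ S i w
    · rw [if_pos hcr]
      have hb' := hb (by
        have h1 := hcr.2
        unfold poorCells at h1
        refine h1.trans (le_of_eq ?_)
        congr 2
        apply filter_congr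
        intro j _
        rfl)
      have hPres : Lv.l i ≤ Θ * C := hcr.1
      have hl0 : Lv.l 0 = Lv.W i * Lv.l i := (Lv.W_mul_l i hi.le).symm
      calc 8 * t * Θ * (Lv.W i * C ^ 2) + Lv.l 0 * C
          ≤ 8 * t * Θ * (Lv.W i * C ^ 2) + (Lv.W i * (Θ * C)) * C := by
            rw [hl0]; gcongr
        _ = Θ * Lv.W i * ((8 * t + 1) * C ^ 2) := by ring
        _ ≤ Θ * Lv.W i * (8 * t * (Lv.ρ i * Q)) := by gcongr
        _ = _ := by ring
    · rw [if_neg hcr, mul_zero, add_zero]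
      gcongr
  have hsum := sum_le_sum hterm
  rw [sum_add_distrib, ← mul_sum, ← mul_sum, ← mul_sum, ← mul_sum, ← mul_sum, ← mul_sum] at hsum
  rw [hEn1]
  unfold En critMass
  have hcm : ∑ w ∈ (range (Lv.W i)).filter (fun w => Lv.Crit t Θ S i w), cnt (Lv.l i) S w =
      ∑ w ∈ range (Lv.W i), if Lv.Crit t Θ S i w then cnt (Lv.l i) S w else 0 := by
    rw [sum_filter]
  rw [hcm]
  calc _ = _ := by rfl
    _ ≤ _ := hsum
    _ = _ := by ring

lemma En_top_le (S : Finset (Fin n)) : Lv.En S Lv.L ≤ Lv.l 0 * S.card := by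
  unfold En
  have hl := Lv.hl Lv.L le_rfl
  calc Lv.W Lv.L * ∑ w ∈ range (Lv.W Lv.L), cnt (Lv.l Lv.L) S w ^ 2
      ≤ Lv.W Lv.L * ∑ w ∈ range (Lv.W Lv.L), Lv.l Lv.L * cnt (Lv.l Lv.L) S w := by
        gcongr with w _
        rw [sq]
        gcongr
        exact cnt_le _ hl _ _
    _ = Lv.W Lv.L * (Lv.l Lv.L * ∑ w ∈ range (Lv.W Lv.L), cnt (Lv.l Lv.L) S w) := by
        simp only [mul_sum]
    _ ≤ Lv.W Lv.L * (Lv.l Lv.L * S.card) := by
        gcongr
        exact sum_cnt_le _ _ _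
    _ = (Lv.W Lv.L * Lv.l Lv.L) * S.card := by ring
    _ = _ := by rw [Lv.W_mul_l _ le_rfl]

/-- Total critical mass bound. -/
theorem sum_critMass_le (t Θ : ℕ) (S : Finset (Fin n)) :
    ∑ i ∈ range Lv.L, Lv.critMass t Θ S i ≤ 8 * t * Θ * S.card := by
  have hl0 : 1 ≤ Lv.l 0 := Lv.hl 0 (Nat.zero_le _)
  have key : ∀ j, j ≤ Lv.L → 8 * t * Θ * Lv.En S 0 + Lv.l 0 * ∑ i ∈ range j, Lv.critMass t Θ S i
      ≤ 8 * t * Θ * Lv.En S j := by
    intro j
    induction j with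
    | zero => simp
    | succ j ih =>
      intro hj
      have h1 := ih (by omega)
      have h2 := Lv.energy_step t Θ S j (by omega)
      rw [sum_range_succ, mul_add]
      omega
  have h1 := key Lv.L le_rfl
  have h2 : Lv.l 0 * ∑ i ∈ range Lv.L, Lv.critMass t Θ S i ≤ Lv.l 0 * (8 * t * Θ * S.card) := by
    calc _ ≤ 8 * t * Θ * Lv.En S Lv.L := by omega
      _ ≤ 8 * t * Θ * (Lv.l 0 * S.card) := by
          gcongr
          exact Lv.En_top_le S
      _ = _ := by ring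
  exact Nat.le_of_mul_le_mul_left h2 hl0

end Levels

end Vale.Agent.Lib.P037_helper52
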