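import Mathlib

/-! Counting fibres of coordinate projections on product sets, and monotone retractions. -/

namespace Vale.Agent.Lib.P037_helper52

open Finset

lemma card_fiber_le {ι β : Type*} [Fintype ι] [DecidableEq ι] [DecidableEq β]
    (C : ι → Finset β) (s : ℕ) (hC : ∀ i, (C i).card ≤ s) {k : ℕ} (v : Fin k → ι)
    (hv : Function.Injective v) (z : Fin k → β) :
    ((Fintype.piFinset C).filter (fun f => ∀ j, f (v j) = z j)).card
      ≤ s ^ (Fintype.card ι - k) := by
  classical
  let Co := (univ : Finset ι) \ univ.image v
  have hCo : Co.card = Fintype.card ι - k := by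
    rw [card_sdiff_of_subset (subset_univ _), card_image_of_injective _ hv]
    simp
  let g : (ι → β) → ((i : Co) → β) := fun f i => f i.1
  have hinj : Set.InjOn g
      (((Fintype.piFinset C).filter (fun f => ∀ j, f (v j) = z j) : Finset (ι → β)) : Set (ι → β)) := by
    intro f hf f' hf' hff
    simp only [coe_filter, Set.mem_ofPred_eq] at hf hf'
    funext i
    by_cases hi : i ∈ univ.image v
    · obtain ⟨j, -, rfl⟩ := mem_image.1 hi
      rw [hf.2 j, hf'.2 j]
    · have hi' : i ∈ Co := by
        simp only [Co, mem_sdiff, mem_univ, true_and]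
        exact hi
      exact congrFun hff ⟨i, hi'⟩
  have hmaps : ∀ f ∈ (Fintype.piFinset C).filter (fun f => ∀ j, f (v j) = z j),
      g f ∈ Fintype.piFinset (fun i : Co => C i.1) := by
    intro f hf
    simp only [mem_filter, Fintype.mem_piFinset] at hf
    simp only [Fintype.mem_piFinset]
    intro i
    exact hf.1 i.1
  calc _ ≤ (Fintype.piFinset (fun i : Co => C i.1)).card := card_le_card_of_injOn g hmaps hinj
    _ = ∏ i : Co, (C i.1).card := Fintype.card_piFinset _
    _ ≤ ∏ _i : Co, s := prod_le_prod' (fun i _ => hC i.1)
    _ = s ^ (Fintype.card ι - k) := by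
        simp [hCo]

/-- A monotone retraction of `Fin n` onto a nonempty subset. -/
lemma exists_retraction {n : ℕ} (S : Finset (Fin n)) (hS : S.Nonempty) :
    ∃ π : Fin n → Fin n, Monotone π ∧ (∀ x, π x ∈ S) ∧ ∀ x ∈ S, π x = x := by
  classical
  -- the largest element of `S` below `x`, or the least element of `S`
  let m := S.min' hS
  let π : Fin n → Fin n := fun x =>
    if h : (S.filter (fun y => y ≤ x)).Nonempty then (S.filter (fun y => y ≤ x)).max' h else m
  refine ⟨π, ?_, ?_, ?_⟩
  · intro x y hxy
    simp only [π]
    by_cases hx : (S.filter (fun u => u ≤ x)).Nonempty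
    · have hy : (S.filter (fun u => u ≤ y)).Nonempty := by
        obtain ⟨u, hu⟩ := hx
        simp only [mem_filter] at hu
        exact ⟨u, by simp only [mem_filter]; exact ⟨hu.1, hu.2.trans hxy⟩⟩
      rw [dif_pos hx, dif_pos hy]
      apply le_max'
      have := max'_mem _ hx
      simp only [mem_filter] at this ⊢
      exact ⟨this.1, this.2.trans hxy⟩
    · rw [dif_neg hx]
      by_cases hy : (S.filter (fun u => u ≤ y)).Nonempty
      · rw [dif_pos hy]
        have := max'_mem _ hy
        simp only [mem_filter] at this
        exact (min'_le S _ this.1)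
      · rw [dif_neg hy]
  · intro x
    simp only [π]
    by_cases hx : (S.filter (fun u => u ≤ x)).Nonempty
    · rw [dif_pos hx]
      have := max'_mem _ hx
      simp only [mem_filter] at this
      exact this.1
    · rw [dif_neg hx]
      exact min'_mem _ _
  · intro x hx
    simp only [π]
    have hne : (S.filter (fun u => u ≤ x)).Nonempty := ⟨x, by simp [hx]⟩
    rw [dif_pos hne]
    apply le_antisymm
    · have := max'_mem _ hne
      simp only [mem_filter] at this
      exact this.2
    · apply le_max'
      simp [hx]

end Vale.Agent.Lib.P037_helper52
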