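import Vale.Agent.Lib.P037_helper52.MainParam
import Vale.Agent.Lib.P037_helper52.Bound

/-! The removal theorem with a double exponential bound, in real form. -/

namespace Vale.Agent.Lib.P037_helper52

open Finset
open Vale.Agent.Lib.P037

lemma hamming_self {n : ℕ} (A : Fin n → Fin n → Bool) : hamming A A = 0 := by
  simp [hamming]

/-- Far matrices have many copies: natural number form. -/
lemma far_copies {k n E : ℕ} (hk : 1 ≤ k) (hE : 1 ≤ E) (hn : 1 ≤ n)
    (H : Fin k → Fin k → Bool) (A : Fin n → Fin n → Bool) (ε : ℝ) (hε : 0 < ε)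
    (hEε : 1 < (E : ℝ) * ε) (hfar : IsFar H A ε) :
    n ^ (2 * k) ≤ copies H A * pΔ k E := by
  by_contra hcon
  push Not at hcon
  have hnpos : (0 : ℝ) < n := by exact_mod_cast hn
  have hn2 : (0 : ℝ) < (n : ℝ) ^ 2 := by positivity
  have hN1 : 1 ≤ copies H A := by
    by_contra h0
    have h00 : copies H A = 0 := by omega
    have h1 := hfar A h00
    rw [hamming_self] at h1
    simp only [Nat.cast_zero] at h1
    have : 0 < ε * (n : ℝ) ^ 2 := by positivity
    linarith
  obtain ⟨B, hB, hham⟩ := main_param hk H A hE hN1 hcon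
  have h1 := hfar B hB
  have h2 : (E : ℝ) * (hamming A B : ℝ) ≤ (n : ℝ) ^ 2 := by exact_mod_cast hham
  have hE0 : (0 : ℝ) < E := by exact_mod_cast hE
  have h3 : (E : ℝ) * (ε * (n : ℝ) ^ 2) ≤ (n : ℝ) ^ 2 :=
    (mul_le_mul_of_nonneg_left h1 hE0.le).trans h2
  have h4 : ((E : ℝ) * ε) * (n : ℝ) ^ 2 ≤ 1 * (n : ℝ) ^ 2 := by
    calc _ = (E : ℝ) * (ε * (n : ℝ) ^ 2) := by ring
      _ ≤ _ := h3
      _ = _ := by ring
  have h5 := le_of_mul_le_mul_right h4 hn2
  linarith

lemma two_pow_le_exp (m : ℕ) : ((2 : ℝ) ^ m) ≤ Real.exp (m : ℝ) := by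
  have h1 : (2 : ℝ) ≤ Real.exp 1 := by
    have := Real.add_one_le_exp (1 : ℝ)
    linarith
  calc (2 : ℝ) ^ m ≤ (Real.exp 1) ^ m := by gcongr
    _ = Real.exp (m : ℝ) := by
        rw [← Real.exp_nat_mul]
        simp

/-- The double exponential removal theorem. -/
theorem removal_dexp (k : ℕ) :
    ∃ C : ℕ, 1 ≤ C ∧ ∀ (H : Fin k → Fin k → Bool) (n : ℕ) (A : Fin n → Fin n → Bool) (ε : ℝ),
      1 ≤ n → 0 < ε → ε < 1 → IsFar H A ε →
      Real.exp (-Real.exp (((C : ℝ) / ε) ^ C)) * (n : ℝ) ^ (2 * k) ≤ (copies H A : ℝ) := by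
  rcases Nat.eq_zero_or_pos k with rfl | hk
  · refine ⟨1, le_rfl, fun H n A ε _ _ _ _ => ?_⟩
    have h1 : copies H A = 1 := by
      unfold copies
      rw [card_eq_one]
      refine ⟨(fun i => i.elim0, fun i => i.elim0), ?_⟩
      ext p
      simp only [mem_filter, mem_univ, true_and, mem_singleton]
      constructor
      · intro _
        exact Prod.ext (funext fun i => i.elim0) (funext fun i => i.elim0)
      · intro _
        exact ⟨fun i => i.elim0, fun i => i.elim0, fun i => i.elim0⟩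
    rw [h1]
    simp only [mul_zero, pow_zero, mul_one, Nat.cast_one]
    rw [Real.exp_le_one_iff]
    have h2 := Real.exp_pos ((((1 : ℕ) : ℝ) / ε) ^ 1)
    linarith
  · obtain ⟨C, hC1, hC⟩ := pΔ_closed k hk
    refine ⟨2 * C, by omega, fun H n A ε hn hε hε1 hfar => ?_⟩
    set E := ⌊1 / ε⌋₊ + 1 with hEdef
    have hE1 : 1 ≤ E := by omega
    have hinv : 1 / ε < (E : ℝ) := by
      rw [hEdef]
      push_cast
      exact Nat.lt_floor_add_one _
    have hinv1 : 1 < 1 / ε := by
      rw [lt_div_iff₀ hε]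
      linarith
    have hEε : 1 < (E : ℝ) * ε := by
      rw [div_lt_iff₀ hε] at hinv
      exact hinv
    have hE2 : (E : ℝ) ≤ 2 / ε := by
      have h1 : (E : ℝ) ≤ 1 / ε + 1 := by
        rw [hEdef]
        push_cast
        have := Nat.floor_le (a := 1 / ε) (by positivity)
        linarith
      have h2 : 2 / ε = 1 / ε + 1 / ε := by ring
      rw [h2]
      linarith
    have hmain := far_copies hk hE1 hn H A ε hε hEε hfar
    have hΔ := hC E hE1
    -- the real bound
    set Y : ℝ := (((2 * C : ℕ) : ℝ) / ε) ^ (2 * C) with hY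
    have hCr : (1 : ℝ) ≤ C := by exact_mod_cast hC1
    have hy : (((C * E) ^ C : ℕ) : ℝ) ≤ Y := by
      push_cast
      rw [hY]
      push_cast
      have h1 : (C : ℝ) * E ≤ 2 * C / ε := by
        calc (C : ℝ) * E ≤ C * (2 / ε) := by gcongr
          _ = 2 * C / ε := by ring
      have h2 : (1 : ℝ) ≤ 2 * C / ε := by
        have : (1 : ℝ) ≤ (C : ℝ) * E := by
          have hE' : (1 : ℝ) ≤ E := by exact_mod_cast hE1
          nlinarith
        linarith
      calc ((C : ℝ) * E) ^ C ≤ (2 * C / ε) ^ C := by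
            gcongr
        _ ≤ (2 * C / ε) ^ (2 * C) := by
            apply pow_le_pow_right₀ h2
            omega
    have h2y : ((2 ^ ((C * E) ^ C) : ℕ) : ℝ) ≤ Real.exp Y := by
      push_cast
      have h1 := two_pow_le_exp ((C * E) ^ C)
      refine h1.trans (Real.exp_le_exp.2 ?_)
      exact hy
    have hΔr : (pΔ k E : ℝ) ≤ Real.exp (Real.exp Y) := by
      have h1 : (pΔ k E : ℝ) ≤ ((2 ^ (2 ^ ((C * E) ^ C)) : ℕ) : ℝ) := by exact_mod_cast hΔ
      refine h1.trans ?_
      have h3 : ((2 ^ (2 ^ ((C * E) ^ C)) : ℕ) : ℝ) = (2 : ℝ) ^ (2 ^ ((C * E) ^ C)) := by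
        push_cast; rfl
      rw [h3]
      exact (two_pow_le_exp _).trans (Real.exp_le_exp.2 h2y)
    have hmainr : (n : ℝ) ^ (2 * k) ≤ (copies H A : ℝ) * (pΔ k E : ℝ) := by
      exact_mod_cast hmain
    have hN0 : (0 : ℝ) ≤ copies H A := by positivity
    have hexp : Real.exp (-Real.exp Y) * Real.exp (Real.exp Y) = 1 := by
      rw [← Real.exp_add]; simp
    calc Real.exp (-Real.exp Y) * (n : ℝ) ^ (2 * k)
        ≤ Real.exp (-Real.exp Y) * ((copies H A : ℝ) * (pΔ k E : ℝ)) := by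
          gcongr
      _ ≤ Real.exp (-Real.exp Y) * ((copies H A : ℝ) * Real.exp (Real.exp Y)) := by
          gcongr
      _ = (copies H A : ℝ) * (Real.exp (-Real.exp Y) * Real.exp (Real.exp Y)) := by ring
      _ = (copies H A : ℝ) := by rw [hexp, mul_one]

end Vale.Agent.Lib.P037_helper52
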