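import Vale.Agent.Lib.P037_helper52.Sample

/-! Word deletion, random representatives and the assembly of the repaired matrix. -/

namespace Vale.Agent.Lib.P037_helper52

open Finset
open Vale.Agent.Lib.P037

variable {n : ℕ}

lemma exists_floor (Z : Finset (Fin n)) (m : ℕ) (hm : m ≤ Z.card) :
    ∃ p : ℕ, (Z.filter (fun x => x.1 < p)).card = m := by
  induction m with
  | zero => exact ⟨0, by simp⟩
  | succ m ih =>
    obtain ⟨p, hp⟩ := ih (by omega)
    have hne : (Z.filter (fun x => ¬ x.1 < p)).Nonempty := by
      rw [← card_pos]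
      have := card_filter_add_card_filter_not (s := Z) (fun x : Fin n => x.1 < p)
      omega
    let z := (Z.filter (fun x => ¬ x.1 < p)).min' hne
    have hz : z ∈ Z ∧ ¬ z.1 < p := mem_filter.1 (min'_mem _ hne)
    refine ⟨z.1 + 1, ?_⟩
    have : Z.filter (fun x => x.1 < z.1 + 1) = insert z (Z.filter (fun x => x.1 < p)) := by
      ext y
      simp only [mem_filter, mem_insert]
      constructor
      · rintro ⟨hy, hyz⟩
        by_cases hyp : y.1 < p
        · exact Or.inr ⟨hy, hyp⟩
        · left
          have : z ≤ y := min'_le _ _ (by simp [hy]; omega)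
          apply Fin.ext
          have h2 : z.1 ≤ y.1 := this
          omega
      · rintro (rfl | ⟨hy, hyp⟩)
        · exact ⟨hz.1, by omega⟩
        · have := hz.2
          exact ⟨hy, by omega⟩
    rw [this, card_insert_of_notMem, hp]
    simp only [mem_filter, not_and]
    intro _
    exact hz.2

lemma strictMono_cons {k : ℕ} (z : Fin n) (c : Fin k → Fin n) (hc : StrictMono c)
    (hz : ∀ j, z < c j) : StrictMono (Fin.cons z c : Fin (k + 1) → Fin n) := by
  intro i j hij
  induction i using Fin.cases with
  | zero =>
    induction j using Fin.cases with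
    | zero => exact absurd hij (lt_irrefl _)
    | succ j => simpa using hz j
  | succ i =>
    induction j using Fin.cases with
    | zero => exact absurd hij (by simp)
    | succ j =>
      simp only [Fin.cons_succ]
      exact hc (Fin.succ_lt_succ_iff.1 hij)

/-- Greedy deletion: few strict tuples in letter sets can be destroyed, even as weak tuples,
by deleting few positions. -/
lemma word_deletion : ∀ (k m : ℕ) (L : Fin k → Finset (Fin n)) (p : ℕ),
    (univ.filter (fun c : Fin k → Fin n =>
        StrictMono c ∧ (∀ j, c j ∈ L j) ∧ ∀ j, p ≤ (c j).1)).card < m ^ k →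
    ∃ D : Finset (Fin n), D.card ≤ k * m ∧ ∀ c : Fin k → Fin n, Monotone c →
      (∀ j, c j ∈ L j) → (∀ j, p ≤ (c j).1) → ∃ j, c j ∈ D := by
  intro k
  induction k with
  | zero =>
    intro m L p h
    exfalso
    simp only [pow_zero, Nat.lt_one_iff, card_eq_zero] at h
    have : (fun i : Fin 0 => i.elim0) ∈ (univ.filter (fun c : Fin 0 → Fin n =>
        StrictMono c ∧ (∀ j, c j ∈ L j) ∧ ∀ j, p ≤ (c j).1)) := by
      simp only [mem_filter, mem_univ, true_and]
      refine ⟨fun i => i.elim0, fun i => i.elim0, fun i => i.elim0⟩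
    rw [h] at this
    simp at this
  | succ k ih =>
    intro m L p h
    classical
    let Z := (L 0).filter (fun x => p ≤ x.1)
    by_cases hZ : Z.card < m
    · refine ⟨Z, ?_, ?_⟩
      · nlinarith
      · intro c _ hL hp
        exact ⟨0, by simp only [Z, mem_filter]; exact ⟨hL 0, hp 0⟩⟩
    · push Not at hZ
      obtain ⟨q, hq⟩ := exists_floor Z m hZ
      let B := Z.filter (fun x => x.1 < q)
      let L' : Fin k → Finset (Fin n) := fun j => L j.succ
      -- the tail count is small
      have hcount : (univ.filter (fun c : Fin k → Fin n =>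
          StrictMono c ∧ (∀ j, c j ∈ L' j) ∧ ∀ j, q ≤ (c j).1)).card < m ^ k := by
        by_contra hcon
        push Not at hcon
        have hinj : (B ×ˢ (univ.filter (fun c : Fin k → Fin n =>
            StrictMono c ∧ (∀ j, c j ∈ L' j) ∧ ∀ j, q ≤ (c j).1))).card ≤
            (univ.filter (fun c : Fin (k + 1) → Fin n =>
              StrictMono c ∧ (∀ j, c j ∈ L j) ∧ ∀ j, p ≤ (c j).1)).card := by
          apply card_le_card_of_injOn (fun s => (Fin.cons s.1 s.2 : Fin (k + 1) → Fin n))
          · intro s hs
            simp only [coe_product, Set.mem_prod, mem_coe, B, Z, mem_filter, mem_univ, true_and] at hs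
            obtain ⟨⟨⟨hsL, hsp⟩, hsq⟩, hc, hcL, hcq⟩ := hs
            simp only [coe_filter, mem_univ, true_and, Set.mem_ofPred_eq]
            have hlt : ∀ j, s.1 < s.2 j := by
              intro j
              have := hcq j
              show s.1.1 < (s.2 j).1
              omega
            refine ⟨strictMono_cons s.1 s.2 hc hlt, ?_, ?_⟩
            · intro j
              induction j using Fin.cases with
              | zero => simpa using hsL
              | succ j => simpa using hcL j
            · intro j
              induction j using Fin.cases with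
              | zero => simpa using hsp
              | succ j =>
                simp only [Fin.cons_succ]
                have h1 := hcq j
                have h2 : s.1.1 < (s.2 j).1 := hlt j
                omega
          · intro s _ s' _ hss
            have h1 : s.1 = s'.1 := by
              have := congrFun hss 0
              simpa using this
            have h2 : s.2 = s'.2 := by
              funext j
              have := congrFun hss j.succ
              simpa using this
            exact Prod.ext h1 h2
        rw [card_product, hq] at hinj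
        have h3 : m ^ (k + 1) ≤ m * (univ.filter (fun c : Fin k → Fin n =>
            StrictMono c ∧ (∀ j, c j ∈ L' j) ∧ ∀ j, q ≤ (c j).1)).card := by
          rw [pow_succ']
          gcongr
        have hB : B.card = m := hq
        omega
      obtain ⟨D', hD'c, hD'⟩ := ih m L' q hcount
      refine ⟨B ∪ D', ?_, ?_⟩
      · calc _ ≤ B.card + D'.card := card_union_le _ _
          _ ≤ m + k * m := by
              have : B.card = m := hq
              omega
          _ = _ := by ring
      · intro c hmono hL hp
        by_cases h0 : c 0 ∈ B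
        · exact ⟨0, mem_union_left _ h0⟩
        · have hq0 : q ≤ (c 0).1 := by
            by_contra hlt
            apply h0
            simp only [B, Z, mem_filter]
            exact ⟨⟨hL 0, hp 0⟩, by omega⟩
          have hqall : ∀ j : Fin k, q ≤ (c j.succ).1 := by
            intro j
            have : c 0 ≤ c j.succ := hmono (Fin.zero_le _)
            have h2 : (c 0).1 ≤ (c j.succ).1 := this
            omega
          obtain ⟨j, hj⟩ := hD' (fun j => c j.succ)
            (fun a b hab => hmono (Fin.succ_le_succ_iff.2 hab)) (fun j => hL j.succ) hqall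
          exact ⟨j.succ, mem_union_right _ hj⟩

/-- Existence of representatives carrying few copies, and of a small deletion set killing all
the weak copies on them. -/
theorem reps_exists {k : ℕ} (hk : 1 ≤ k) (H : Fin k → Fin k → Bool) (A : Fin n → Fin n → Bool)
    {ι : Type} [Fintype ι] [DecidableEq ι] (C : ι → Finset (Fin n)) (s m : ℕ)
    (hC : ∀ i, s ≤ (C i).card) (hι : k ≤ Fintype.card ι)
    (hcount : (Fintype.card ι) ^ k * copies H A < m ^ k * s ^ k) :
    ∃ ζ : ι → Fin n, (∀ i, ζ i ∈ C i) ∧ ∃ D : Finset (Fin n),
      D.card ≤ (Fintype.card ι) ^ k * (k * m) ∧ ∀ v : Fin k → ι, StrictMono (ζ ∘ v) →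
        ∀ c : Fin k → Fin n, Monotone c → (∀ j, c j ∉ D) → ¬ ∀ i j, A (ζ (v i)) (c j) = H i j := by
  classical
  have hspos : 1 ≤ s := by
    by_contra hs
    have : s = 0 := by omega
    subst this
    rw [zero_pow (by omega), mul_zero] at hcount
    omega
  have hmpos : 1 ≤ m := by
    by_contra hs
    have : m = 0 := by omega
    subst this
    rw [zero_pow (by omega), zero_mul] at hcount
    omega
  have hsub : ∀ i, ∃ C' ⊆ C i, C'.card = s := fun i => exists_subset_card_eq (hC i)
  choose C' hC'sub hC'c using hsub
  let Ω := Fintype.piFinset C'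
  have hΩ : Ω.card = s ^ Fintype.card ι := by
    simp [Ω, Fintype.card_piFinset, hC'c]
  -- strict column tuples with pattern on rows given by z
  let cop : (Fin k → Fin n) → Finset (Fin k → Fin n) := fun r =>
    univ.filter (fun c => StrictMono c ∧ ∀ i j, A (r i) (c j) = H i j)
  let X : (ι → Fin n) → ℕ := fun ζ =>
    ∑ v : Fin k → ι, if StrictMono (ζ ∘ v) then (cop (ζ ∘ v)).card else 0
  have hsumv : ∀ v : Fin k → ι, ∑ ζ ∈ Ω, (if StrictMono (ζ ∘ v) then (cop (ζ ∘ v)).card else 0)
      ≤ copies H A * s ^ (Fintype.card ι - k) := by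
    intro v
    by_cases hv : Function.Injective v
    · have h1 : ∑ ζ ∈ Ω, (if StrictMono (ζ ∘ v) then (cop (ζ ∘ v)).card else 0) =
          ∑ ζ ∈ Ω, ∑ q ∈ copySet H A, if ζ ∘ v = q.1 then 1 else 0 := by
        apply sum_congr rfl
        intro ζ _
        by_cases hst : StrictMono (ζ ∘ v)
        · rw [if_pos hst]
          have : (cop (ζ ∘ v)).card = ((copySet H A).filter (fun q => ζ ∘ v = q.1)).card := by
            apply card_bij (fun c _ => (ζ ∘ v, c))
            · intro c hc
              simp only [cop, mem_filter, mem_univ, true_and] at hc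
              simp only [copySet, mem_filter, mem_univ, true_and]
              exact ⟨⟨hst, hc.1, hc.2⟩, trivial⟩
            · intro c _ c' _ h
              exact (Prod.ext_iff.1 h).2
            · intro q hq
              simp only [copySet, mem_filter, mem_univ, true_and] at hq
              refine ⟨q.2, ?_, ?_⟩
              · simp only [cop, mem_filter, mem_univ, true_and]
                rw [hq.2]
                exact hq.1.2
              · exact Prod.ext hq.2 rfl
          rw [this, card_filter]
        · rw [if_neg hst]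
          symm
          apply sum_eq_zero
          intro q hq
          rw [if_neg]
          intro h
          simp only [copySet, mem_filter, mem_univ, true_and] at hq
          rw [h] at hst
          exact hst hq.1
      rw [h1, sum_comm]
      calc ∑ q ∈ copySet H A, ∑ ζ ∈ Ω, (if ζ ∘ v = q.1 then 1 else 0)
          ≤ ∑ _q ∈ copySet H A, s ^ (Fintype.card ι - k) := by
            apply sum_le_sum
            intro q _
            rw [← card_filter]
            have hfib := card_fiber_le C' s (fun i => (hC'c i).le) v hv q.1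
            refine le_trans (card_le_card ?_) hfib
            intro ζ hζ
            simp only [mem_filter] at hζ ⊢
            exact ⟨hζ.1, fun j => congrFun hζ.2 j⟩
        _ = _ := by rw [sum_const, smul_eq_mul, card_copySet]
    · have : ∀ ζ : ι → Fin n, ¬ StrictMono (ζ ∘ v) := fun ζ hst => hv (hst.injective.of_comp)
      simp [this]
  have hsum : ∑ ζ ∈ Ω, X ζ ≤ (Fintype.card ι) ^ k * (copies H A * s ^ (Fintype.card ι - k)) := by
    simp only [X]
    rw [sum_comm]
    calc _ ≤ ∑ _v : Fin k → ι, copies H A * s ^ (Fintype.card ι - k) :=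
          sum_le_sum (fun v _ => hsumv v)
      _ = _ := by simp
  have hex : ∃ ζ ∈ Ω, X ζ < m ^ k := by
    by_contra hcon
    push Not at hcon
    have h1 : Ω.card * m ^ k ≤ ∑ ζ ∈ Ω, X ζ := by
      rw [← smul_eq_mul, ← sum_const]
      exact sum_le_sum hcon
    have h2 := h1.trans hsum
    rw [hΩ] at h2
    have h3 : s ^ Fintype.card ι = s ^ (Fintype.card ι - k) * s ^ k := by
      rw [← pow_add]; congr 1; omega
    have hpos : 0 < s ^ (Fintype.card ι - k) := by positivity
    have h4 : s ^ (Fintype.card ι - k) * (m ^ k * s ^ k) ≤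
        s ^ (Fintype.card ι - k) * ((Fintype.card ι) ^ k * copies H A) := by
      calc _ = s ^ Fintype.card ι * m ^ k := by rw [h3]; ring
        _ ≤ _ := h2
        _ = _ := by ring
    have := Nat.le_of_mul_le_mul_left h4 hpos
    omega
  obtain ⟨ζ, hζΩ, hζX⟩ := hex
  have hζC : ∀ i, ζ i ∈ C i := fun i => hC'sub i (Fintype.mem_piFinset.1 hζΩ i)
  -- deletion sets per tuple of indices
  have hD : ∀ v : Fin k → ι, ∃ D : Finset (Fin n), D.card ≤ k * m ∧ (StrictMono (ζ ∘ v) →
      ∀ c : Fin k → Fin n, Monotone c → (∀ i j, A (ζ (v i)) (c j) = H i j) → ∃ j, c j ∈ D) := by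
    intro v
    by_cases hst : StrictMono (ζ ∘ v)
    · let L : Fin k → Finset (Fin n) := fun j => univ.filter (fun c => ∀ i, A (ζ (v i)) c = H i j)
      have hle : (univ.filter (fun c : Fin k → Fin n =>
          StrictMono c ∧ (∀ j, c j ∈ L j) ∧ ∀ j, 0 ≤ (c j).1)).card < m ^ k := by
        refine lt_of_le_of_lt ?_ hζX
        have h1 : (univ.filter (fun c : Fin k → Fin n =>
            StrictMono c ∧ (∀ j, c j ∈ L j) ∧ ∀ j, 0 ≤ (c j).1)) ⊆ cop (ζ ∘ v) := by
          intro c hc
          simp only [mem_filter, mem_univ, true_and, L] at hc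
          simp only [cop, mem_filter, mem_univ, true_and, Function.comp]
          exact ⟨hc.1, fun i j => hc.2.1 j i⟩
        refine (card_le_card h1).trans ?_
        have h2 : (cop (ζ ∘ v)).card =
            (if StrictMono (ζ ∘ v) then (cop (ζ ∘ v)).card else 0) := by rw [if_pos hst]
        rw [h2]
        exact single_le_sum (f := fun v : Fin k → ι =>
          if StrictMono (ζ ∘ v) then (cop (ζ ∘ v)).card else 0) (fun _ _ => Nat.zero_le _) (mem_univ v)
      obtain ⟨D, hDc, hDp⟩ := word_deletion k m L 0 hle
      refine ⟨D, hDc, fun _ c hmono hpat => ?_⟩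
      exact hDp c hmono (fun j => by
        simp only [L, mem_filter, mem_univ, true_and]
        exact fun i => hpat i j) (fun _ => Nat.zero_le _)
    · exact ⟨∅, by simp, fun h => absurd h hst⟩
  choose Dv hDvc hDvp using hD
  refine ⟨ζ, hζC, univ.biUnion Dv, ?_, ?_⟩
  · calc _ ≤ ∑ v : Fin k → ι, (Dv v).card := card_biUnion_le
      _ ≤ ∑ _v : Fin k → ι, k * m := sum_le_sum (fun v _ => hDvc v)
      _ = _ := by simp
  · intro v hst c hmono hnot hpat
    obtain ⟨j, hj⟩ := hDvp v hst c hmono hpat
    exact hnot j (mem_biUnion.2 ⟨v, mem_univ _, hj⟩)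

/-- Assembly of the repaired matrix. -/
theorem assemble {k : ℕ} (hk : 1 ≤ k) (H : Fin k → Fin k → Bool) (A : Fin n → Fin n → Bool)
    (Sv Kp : Finset (Fin n)) (hSv : Sv.Nonempty) (hKp : Kp.Nonempty)
    (z : Fin n → Fin k → Fin n)
    (hord : ∀ x ∈ Sv, ∀ y ∈ Sv, x ≤ y → ∀ i j, i < j → z x i < z y j)
    (hclean : ∀ x ∈ Sv, ∀ c ∈ Kp, ∀ i, A (z x i) c = A (z x ⟨0, hk⟩) c)
    (hfree : ∀ r : Fin k → Fin n, StrictMono r → (∀ i, ∃ x ∈ Sv, r i = z x i) →
      ∀ c : Fin k → Fin n, Monotone c → (∀ j, c j ∈ Kp) → ¬ ∀ i j, A (r i) (c j) = H i j) :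
    ∃ B : Fin n → Fin n → Bool, copies H B = 0 ∧
      hamming A B ≤ n * (Kpᶜ.card + Svᶜ.card) + ∑ x ∈ Sv, dst A x (z x ⟨0, hk⟩) := by
  classical
  obtain ⟨π, hπm, hπS, hπf⟩ := exists_retraction Sv hSv
  obtain ⟨κ, hκm, hκS, hκf⟩ := exists_retraction Kp hKp
  let B : Fin n → Fin n → Bool := fun x c => A (z (π x) ⟨0, hk⟩) (κ c)
  refine ⟨B, ?_, ?_⟩
  · unfold copies
    rw [card_eq_zero, filter_eq_empty_iff]
    rintro ⟨p1, p2⟩ _ ⟨h1, h2, h3⟩
    simp only at h1 h2 h3
    refine hfree (fun i => z (π (p1 i)) i) ?_ (fun i => ⟨π (p1 i), hπS _, rfl⟩) (κ ∘ p2) ?_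
      (fun j => hκS _) ?_
    · intro i j hij
      exact hord _ (hπS _) _ (hπS _) (hπm (h1 hij).le) i j hij
    · exact hκm.comp h2.monotone
    · intro i j
      show A (z (π (p1 i)) i) (κ (p2 j)) = H i j
      rw [hclean _ (hπS _) _ (hκS _) i]
      exact h3 i j
  · unfold hamming
    have h0 : (univ.filter (fun p : Fin n × Fin n => A p.1 p.2 ≠ B p.1 p.2)).card =
        ∑ x : Fin n, (univ.filter (fun c => A x c ≠ B x c)).card := by
      rw [card_filter, Fintype.sum_prod_type]
      apply sum_congr rfl
      intro x _
      rw [card_filter]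
    rw [h0]
    have h1 : ∀ x : Fin n, (univ.filter (fun c => A x c ≠ B x c)).card ≤
        (if x ∈ Sv then dst A x (z x ⟨0, hk⟩) + Kpᶜ.card else n) := by
      intro x
      by_cases hx : x ∈ Sv
      · rw [if_pos hx]
        unfold dst
        refine le_trans (card_le_card ?_) (card_union_le _ _)
        intro c hc
        simp only [mem_filter, mem_univ, true_and] at hc
        simp only [mem_union, mem_filter, mem_univ, true_and, mem_compl]
        by_cases hcK : c ∈ Kp
        · left
          simp only [B, hπf x hx, hκf c hcK] at hc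
          exact hc
        · exact Or.inr hcK
      · rw [if_neg hx]
        calc _ ≤ (univ : Finset (Fin n)).card := card_le_card (subset_univ _)
          _ = n := by simp
    calc ∑ x : Fin n, (univ.filter (fun c => A x c ≠ B x c)).card
        ≤ ∑ x : Fin n, (if x ∈ Sv then dst A x (z x ⟨0, hk⟩) + Kpᶜ.card else n) :=
          sum_le_sum (fun x _ => h1 x)
      _ = ∑ x ∈ Sv, (dst A x (z x ⟨0, hk⟩) + Kpᶜ.card) + ∑ _x ∈ Svᶜ, n := by
          rw [sum_ite]
          simp only [compl_eq_univ_sdiff]
          congr 1
          · apply sum_congr _ (fun _ _ => rfl)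
            ext; simp
          · apply sum_congr _ (fun _ _ => rfl)
            ext; simp
      _ = ∑ x ∈ Sv, dst A x (z x ⟨0, hk⟩) + Sv.card * Kpᶜ.card + Svᶜ.card * n := by
          rw [sum_add_distrib]; simp
      _ ≤ ∑ x ∈ Sv, dst A x (z x ⟨0, hk⟩) + n * Kpᶜ.card + Svᶜ.card * n := by
          gcongr
          calc _ ≤ (univ : Finset (Fin n)).card := card_le_card (subset_univ _)
            _ = n := by simp
      _ = _ := by ring

end Vale.Agent.Lib.P037_helper52
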