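import Vale.Agent.Lib.P037_helper52.Cells
import Vale.Agent.Lib.P037_helper52.Reps

/-! Construction of representatives at a chosen level. -/

namespace Vale.Agent.Lib.P037_helper52

open Finset
open Vale.Agent.Lib.P037

variable {n : ℕ}

lemma lt_of_div_lt_div' {a b l : ℕ} (h : a / l < b / l) : a < b := by
  by_contra hcon
  push Not at hcon
  have := Nat.div_le_div_right (c := l) hcon
  omega

open Classical in
/-- The rows served at level `i`. -/
noncomputable def servedRows (Lv : Levels) (i : ℕ) {t : ℕ} (Θ : ℕ) (ty : Fin n → Fin t)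
    (U0 T : Finset (Fin n)) : Finset (Fin n) :=
  U0.filter (fun x => x.1 / Lv.l i < Lv.W i ∧
    Lv.Good t Θ (U0.filter (fun y => ty y = ty x)) i (x.1 / Lv.l i) ∧
    ¬ Lv.l i ≤ 16 * Θ * cnt (Lv.l i) T (x.1 / Lv.l i))

theorem level_reps {k : ℕ} (hk : 1 ≤ k) (H : Fin k → Fin k → Bool) (A : Fin n → Fin n → Bool)
    (Lv : Levels) (i : ℕ) (hi : i < Lv.L) {t Q Θ : ℕ} (ht : 1 ≤ t) (hQ : 1 ≤ Q) (hΘ : 1 ≤ Θ)
    (ty : Fin n → Fin t) (U0 T : Finset (Fin n)) (col : Fin n → Fin Q)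
    (hρeq : Lv.ρ i = 4 * k * Q ^ t)
    (d0 d1 : ℕ)
    (hcol : ∀ x y, x ∉ T → y ∉ T → col x = col y → dst A x y ≤ d1)
    (hty : ∀ x ∈ U0, ∀ y ∈ U0, ty x = ty y → dst A x y ≤ d0)
    (s m : ℕ) (hs1 : s * (4 * Θ * Q) ≤ Lv.l (i + 1)) (hs2 : s ≤ n)
    (hIk : k ≤ Lv.W i * t * k)
    (hcount : (Lv.W i * t * k) ^ k * copies H A < m ^ k * s ^ k) :
    ∃ (z : Fin n → Fin k → Fin n) (Del : Finset (Fin n)),
      Del.card ≤ (Lv.W i * t * k) ^ k * (k * m) + (Lv.W i * t * k) * d1 ∧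
      (∀ x ∈ servedRows Lv i Θ ty U0 T, ∀ y ∈ servedRows Lv i Θ ty U0 T, x ≤ y →
        ∀ a b, a < b → z x a < z y b) ∧
      (∀ x ∈ servedRows Lv i Θ ty U0 T, ∀ c, c ∉ Del → ∀ a,
        A (z x a) c = A (z x ⟨0, hk⟩) c) ∧
      (∀ r : Fin k → Fin n, StrictMono r → (∀ a, ∃ x ∈ servedRows Lv i Θ ty U0 T, r a = z x a) →
        ∀ c : Fin k → Fin n, Monotone c → (∀ j, c j ∉ Del) → ¬ ∀ a j, A (r a) (c j) = H a j) ∧
      (∀ x ∈ servedRows Lv i Θ ty U0 T, dst A x (z x ⟨0, hk⟩) ≤ d0) := by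
  classical
  set ρ := Lv.ρ i with hρdef
  set l := Lv.l i with hldef
  set l' := Lv.l (i + 1) with hl'def
  set W := Lv.W i with hWdef
  have hρ1 : 1 ≤ ρ := Lv.hρ i
  let spoiled : ℕ → Prop := fun w => l ≤ 16 * Θ * cnt l T w
  let S : Fin t → Finset (Fin n) := fun a => U0.filter (fun x => ty x = a)
  let valid : ℕ → Fin t → Prop := fun w a => ¬ spoiled w ∧ Lv.Good t Θ (S a) i w
  have hcells : ∀ w : ℕ, ∃ (J : Fin k → ℕ) (vec : Fin t → Fin Q), ¬ spoiled w →
      (StrictMono J ∧ (∀ a, J a < ρ) ∧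
      ∀ a, Lv.Good t Θ (S a) i w → ∀ b,
        l' ≤ 4 * Θ * Q * (U0.filter (fun u => u ∉ T ∧
          u.1 / l' = w * ρ + J b ∧ ty u = a ∧ col u = vec a)).card) := by
    intro w
    by_cases hw : spoiled w
    · exact ⟨fun _ => 0, fun _ => ⟨0, hQ⟩, fun h => absurd hw h⟩
    · obtain ⟨J, vec, h1, h2, h3⟩ := Lv.cells i hi ht hQ hΘ ty U0 T col hρeq w hw
      exact ⟨J, vec, fun _ => ⟨h1, h2, h3⟩⟩
  choose J vec hJ using hcells
  let Cset : ℕ → Fin t → Fin k → Finset (Fin n) := fun w a b =>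
    U0.filter (fun u => u ∉ T ∧ u.1 / l' = w * ρ + J w b ∧ ty u = a ∧ col u = vec w a)
  let ι := Fin W × Fin t × Fin k
  let C : ι → Finset (Fin n) := fun q =>
    if valid q.1.1 q.2.1 then Cset q.1.1 q.2.1 q.2.2 else univ
  have hcardι : Fintype.card ι = W * t * k := by
    simp [ι, Fintype.card_prod, mul_assoc]
  have hC : ∀ q : ι, s ≤ (C q).card := by
    intro q
    by_cases hv : valid q.1.1 q.2.1
    · simp only [C, if_pos hv]
      have h1 := (hJ q.1.1 hv.1).2.2 q.2.1 hv.2 q.2.2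
      have h2 : s * (4 * Θ * Q) ≤ (4 * Θ * Q) * (Cset q.1.1 q.2.1 q.2.2).card :=
        hs1.trans h1
      rw [mul_comm] at h2
      have hpos : 0 < 4 * Θ * Q := by positivity
      exact Nat.le_of_mul_le_mul_left h2 hpos
    · simp only [C, if_neg hv]
      simpa using hs2
  obtain ⟨ζ, hζ, D, hDc, hDp⟩ := reps_exists hk H A C s m hC (by rw [hcardι]; exact hIk)
    (by rw [hcardι]; exact hcount)
  let l0 : Fin k := ⟨0, hk⟩
  let Vd : Finset ι := univ.filter (fun q => valid q.1.1 q.2.1)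
  let Uncl : Finset (Fin n) := Vd.biUnion (fun q =>
    univ.filter (fun c => A (ζ q) c ≠ A (ζ (q.1, q.2.1, l0)) c))
  have hζmem : ∀ q : ι, valid q.1.1 q.2.1 → ζ q ∈ Cset q.1.1 q.2.1 q.2.2 := by
    intro q hv
    have := hζ q
    simp only [C, if_pos hv] at this
    exact this
  have hUncl : Uncl.card ≤ (W * t * k) * d1 := by
    calc Uncl.card ≤ ∑ q ∈ Vd, (univ.filter (fun c => A (ζ q) c ≠ A (ζ (q.1, q.2.1, l0)) c)).card :=
          card_biUnion_le
      _ ≤ ∑ _q ∈ Vd, d1 := by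
          apply sum_le_sum
          intro q hq
          have hv : valid q.1.1 q.2.1 := (mem_filter.1 hq).2
          have h1 := hζmem q hv
          have h2 := hζmem (q.1, q.2.1, l0) hv
          simp only [Cset, mem_filter] at h1 h2
          exact hcol _ _ h1.2.1 h2.2.1 (h1.2.2.2.2.trans h2.2.2.2.2.symm)
      _ = Vd.card * d1 := by simp
      _ ≤ (univ : Finset ι).card * d1 := by
          gcongr
          exact filter_subset _ _
      _ = (W * t * k) * d1 := by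
          rw [card_univ, hcardι]
  -- facts about served rows
  have hSv : ∀ x ∈ servedRows Lv i Θ ty U0 T, x ∈ U0 ∧ x.1 / l < W ∧ valid (x.1 / l) (ty x) := by
    intro x hx
    simp only [servedRows, mem_filter] at hx
    exact ⟨hx.1, hx.2.1, hx.2.2.2, hx.2.2.1⟩
  let z : Fin n → Fin k → Fin n := fun x b =>
    if h : x.1 / l < W then ζ (⟨x.1 / l, h⟩, ty x, b) else x
  have hzmem : ∀ x ∈ servedRows Lv i Θ ty U0 T, ∀ b, z x b ∈ Cset (x.1 / l) (ty x) b := by
    intro x hx b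
    obtain ⟨_, h2, h3⟩ := hSv x hx
    simp only [z, dif_pos h2]
    exact hζmem (⟨x.1 / l, h2⟩, ty x, b) h3
  refine ⟨z, D ∪ Uncl, ?_, ?_, ?_, ?_, ?_⟩
  · calc (D ∪ Uncl).card ≤ D.card + Uncl.card := card_union_le _ _
      _ ≤ _ := by
          rw [hcardι] at hDc
          omega
  · intro x hx y hy hxy a b hab
    have hxm := hzmem x hx a
    have hym := hzmem y hy b
    simp only [Cset, mem_filter] at hxm hym
    apply lt_of_div_lt_div' (l := l')
    rw [hxm.2.2.1, hym.2.2.1]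
    have hwle : x.1 / l ≤ y.1 / l := Nat.div_le_div_right hxy
    have hvx := (hSv x hx).2.2
    have hvy := (hSv y hy).2.2
    rcases Nat.lt_or_ge (x.1 / l) (y.1 / l) with hlt | hge
    · have h1 := (hJ _ hvx.1).2.1 a
      have h2 : (x.1 / l + 1) * ρ ≤ (y.1 / l) * ρ := Nat.mul_le_mul_right _ hlt
      nlinarith
    · have heq : x.1 / l = y.1 / l := le_antisymm hwle hge
      rw [heq]
      have hvy' : ¬ spoiled (y.1 / l) := hvy.1
      have h1 := (hJ _ hvy').1 hab
      omega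
  · intro x hx c hc a
    have hnotU : c ∉ Uncl := fun h => hc (mem_union_right _ h)
    obtain ⟨_, h2, h3⟩ := hSv x hx
    simp only [z, dif_pos h2]
    by_contra hne
    apply hnotU
    simp only [Uncl, mem_biUnion]
    refine ⟨(⟨x.1 / l, h2⟩, ty x, a), ?_, ?_⟩
    · exact mem_filter.2 ⟨mem_univ _, h3⟩
    · simpa using hne
  · intro r hr hrz c hc hcD hpat
    choose x hxS hxr using hrz
    have hlt : ∀ a, (x a).1 / l < W := fun a => (hSv _ (hxS a)).2.1
    let v : Fin k → ι := fun a => (⟨(x a).1 / l, hlt a⟩, ty (x a), a)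
    have hrv : ∀ a, r a = ζ (v a) := by
      intro a
      rw [hxr a]
      simp only [z, dif_pos (hlt a)]
      rfl
    have hst : StrictMono (ζ ∘ v) := by
      intro a b hab
      have := hr hab
      rw [hrv a, hrv b] at this
      exact this
    refine hDp v hst c hc (fun j hj => hcD j (mem_union_left _ hj)) ?_
    intro a j
    rw [← hrv a]
    exact hpat a j
  · intro x hx
    have h1 := hzmem x hx l0
    simp only [Cset, mem_filter] at h1
    exact hty x (hSv x hx).1 _ h1.1 h1.2.2.2.1.symm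

end Vale.Agent.Lib.P037_helper52
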