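import Vale.Agent.Lib.P037_helper52.Cluster

/-! The parameters of the construction. -/

namespace Vale.Agent.Lib.P037_helper52

def pF (E : ℕ) : ℕ := 16 * E
def pt (k E : ℕ) : ℕ := gt k (4 * pF E) (pF E)
def pΘ (k E : ℕ) : ℕ := pF E * pt k E
def pLL (k E : ℕ) : ℕ := 8 * pt k E * pΘ k E * pF E
def pY (k E : ℕ) : ℕ := 16 * pΘ k E * pF E
def pX (k E w : ℕ) : ℕ := 4 * pF E * (w * pt k E * k)
def pQ (k E w : ℕ) : ℕ := gt k (pX k E w) (pY k E)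
def pρ (k E w : ℕ) : ℕ := 4 * k * pQ k E w ^ pt k E
def pW (k E : ℕ) : ℕ → ℕ
  | 0 => 1
  | i + 1 => pW k E i * pρ k E (pW k E i)
def pPi (k E : ℕ) : ℕ := pW k E (pLL k E)
def pXtop (k E : ℕ) : ℕ := pX k E (pPi k E)
def pQtop (k E : ℕ) : ℕ := gt k (pXtop k E) (pY k E)
def pItop (k E : ℕ) : ℕ := pPi k E * pt k E * k
def pCl (k E : ℕ) : ℕ := 2 * (gr k (pXtop k E) * gp k (pXtop k E) * pY k E) ^ k
def pG (k E : ℕ) : ℕ :=
  32 * pΘ k E * pQtop k E * pPi k E * pItop k E ^ k * k * pF E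
def pR (k E : ℕ) : ℕ := pItop k E ^ k * pG k E ^ k
def pN1 (k E : ℕ) : ℕ :=
  pPi k E * (4 * pΘ k E * pQtop k E + pF E + 1) + pItop k E ^ k * k * pF E
def pΔ (k E : ℕ) : ℕ := pN1 k E ^ (2 * k) + pCl k E + pR k E

lemma gZ_mono (k : ℕ) {X X' : ℕ} (h : X ≤ X') : gZ k X ≤ gZ k X' := by
  unfold gZ; gcongr

lemma gp_mono (k : ℕ) {X X' : ℕ} (h : X ≤ X') : gp k X ≤ gp k X' := by
  unfold gp
  have := gZ_mono k h
  gcongr

lemma gr_mono (k : ℕ) {X X' : ℕ} (h : X ≤ X') : gr k X ≤ gr k X' := by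
  unfold gr
  have := gp_mono k h
  gcongr

lemma gr_pos (k X : ℕ) : 1 ≤ gr k X := by
  unfold gr; omega

lemma gt_mono (k : ℕ) {X X' Y Y' : ℕ} (h : X ≤ X') (h' : Y ≤ Y') : gt k X Y ≤ gt k X' Y' := by
  unfold gt
  have := gr_mono k h
  gcongr

lemma gt_pos (k X Y : ℕ) (hY : 1 ≤ Y) : 1 ≤ gt k X Y := by
  unfold gt
  have := gr_pos k X
  have h2 : 1 ≤ gr k X ^ 2 := Nat.one_le_pow _ _ this
  nlinarith

lemma pX_mono {k E w w' : ℕ} (h : w ≤ w') : pX k E w ≤ pX k E w' := by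
  unfold pX; gcongr

section
variable {k E : ℕ} (hk : 1 ≤ k) (hE : 1 ≤ E)
include hE

lemma pF_pos : 1 ≤ pF E := by unfold pF; omega

lemma pF_ge : 16 ≤ pF E := by unfold pF; omega

lemma pt_pos : 1 ≤ pt k E := gt_pos _ _ _ (pF_pos hE)

lemma pΘ_pos : 1 ≤ pΘ k E := by
  unfold pΘ
  exact Nat.mul_pos (pF_pos hE) (pt_pos hE)

lemma pY_pos : 1 ≤ pY k E := by
  unfold pY
  have h1 := pΘ_pos (k := k) hE
  have h2 := pF_pos hE
  exact Nat.mul_pos (Nat.mul_pos (by norm_num) h1) h2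

lemma pLL_pos : 1 ≤ pLL k E := by
  unfold pLL
  have h1 := pt_pos (k := k) hE
  have h2 := pΘ_pos (k := k) hE
  have h3 := pF_pos hE
  exact Nat.mul_pos (Nat.mul_pos (Nat.mul_pos (by norm_num) h1) h2) h3

lemma pQ_pos (w : ℕ) : 1 ≤ pQ k E w := gt_pos _ _ _ (pY_pos hE)

lemma pF_le_pY : pF E ≤ pY k E := by
  unfold pY
  have h2 := pΘ_pos (k := k) hE
  have h3 := pF_pos hE
  nlinarith

include hk

lemma pρ_pos (w : ℕ) : 1 ≤ pρ k E w := by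
  unfold pρ
  have h1 := pQ_pos (k := k) hE w
  have h2 : 1 ≤ pQ k E w ^ pt k E := Nat.one_le_pow _ _ h1
  nlinarith

lemma pW_pos (i : ℕ) : 1 ≤ pW k E i := by
  induction i with
  | zero => simp [pW]
  | succ i ih =>
    simp only [pW]
    exact Nat.mul_pos ih (pρ_pos hk hE _)

lemma pW_le_succ (i : ℕ) : pW k E i ≤ pW k E (i + 1) := by
  simp only [pW]
  exact Nat.le_mul_of_pos_right _ (pρ_pos hk hE _)

lemma pW_mono {i j : ℕ} (h : i ≤ j) : pW k E i ≤ pW k E j :=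
  monotone_nat_of_le_succ (pW_le_succ hk hE) h

lemma pPi_pos : 1 ≤ pPi k E := pW_pos hk hE _

lemma pW_le_pPi {i : ℕ} (h : i ≤ pLL k E) : pW k E i ≤ pPi k E := pW_mono hk hE h

lemma four_F_le_pXtop : 4 * pF E ≤ pXtop k E := by
  unfold pXtop pX
  have h1 := pPi_pos hk hE
  have h2 := pt_pos (k := k) hE
  have h3 : 1 ≤ pPi k E * pt k E * k := Nat.mul_pos (Nat.mul_pos h1 h2) hk
  exact Nat.le_mul_of_pos_right _ h3

lemma pQ_le_top {i : ℕ} (h : i ≤ pLL k E) : pQ k E (pW k E i) ≤ pQtop k E :=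
  gt_mono _ (pX_mono (pW_le_pPi hk hE h)) le_rfl

lemma pI_le_top {i : ℕ} (h : i ≤ pLL k E) :
    pW k E i * pt k E * k ≤ pItop k E := by
  unfold pItop
  have := pW_le_pPi hk hE h
  gcongr

end

end Vale.Agent.Lib.P037_helper52
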