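import Vale.Agent.Lib.P037_helper52.LevelReps
import Vale.Agent.Lib.P037_helper52.Params

/-! The removal theorem with its explicit parameters. -/

namespace Vale.Agent.Lib.P037_helper52

open Finset
open Vale.Agent.Lib.P037

variable {n : ℕ}

/-- The window system of the construction, with bottom window length `b`. -/
def mkLevels (k E b : ℕ) (hk : 1 ≤ k) (hE : 1 ≤ E) (hb : 1 ≤ b) : Levels where
  L := pLL k E
  W := pW k E
  ρ := fun i => pρ k E (pW k E i)
  l := fun i => b * ∏ j ∈ Finset.Ico i (pLL k E), pρ k E (pW k E j)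
  hρ := fun i => pρ_pos hk hE _
  hl := fun i _ => Nat.mul_pos hb (Finset.prod_pos (fun j _ => pρ_pos hk hE _))
  hW := fun i => rfl
  hW0 := rfl
  hll := by
    intro i hi
    rw [Finset.prod_eq_prod_Ico_succ_bot hi]
    ring

lemma mkLevels_top (k E b : ℕ) (hk : 1 ≤ k) (hE : 1 ≤ E) (hb : 1 ≤ b) :
    (mkLevels k E b hk hE hb).l 0 = pPi k E * b := by
  have h := (mkLevels k E b hk hE hb).W_mul_l (pLL k E) le_rfl
  have h2 : (mkLevels k E b hk hE hb).l (pLL k E) = b := by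
    simp [mkLevels]
  have h3 : (mkLevels k E b hk hE hb).W (pLL k E) = pPi k E := rfl
  have h4 : (mkLevels k E b hk hE hb).L = pLL k E := rfl
  rw [h2, h3] at h
  exact h.symm

/-- Counting the rows that are not served. -/
lemma served_compl {t Θ F : ℕ} (ht : 1 ≤ t) (hΘF : Θ = F * t)
    (Lv : Levels) (i : ℕ) (hi : i ≤ Lv.L)
    (ty : Fin n → Fin t) (U0 T : Finset (Fin n))
    (hU0 : F * U0ᶜ.card ≤ n)
    (htail : F * (n - Lv.l 0) ≤ n)
    (hl0 : Lv.l 0 ≤ n)
    (hcrit : F * ∑ a : Fin t, Lv.critMass t Θ (U0.filter (fun y => ty y = a)) i ≤ n)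
    (hT : 16 * Θ * F * T.card ≤ n) :
    F * (servedRows Lv i Θ ty U0 T)ᶜ.card ≤ 5 * n := by
  classical
  set l := Lv.l i with hl
  set W := Lv.W i with hW
  let Tail : Finset (Fin n) := univ.filter (fun x => ¬ x.1 / l < W)
  let Ab : Finset (Fin n) := U0.filter (fun x : Fin n => x.1 / l < W ∧
      ¬ Lv.Pres Θ (U0.filter (fun y => ty y = ty x)) i (x.1 / l))
  let Cr : Finset (Fin n) := U0.filter (fun x : Fin n => x.1 / l < W ∧
      Lv.Crit t Θ (U0.filter (fun y => ty y = ty x)) i (x.1 / l))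
  let Sp : Finset (Fin n) := univ.filter (fun x : Fin n => x.1 / l < W ∧
      l ≤ 16 * Θ * cnt l T (x.1 / l))
  have hsub : (servedRows Lv i Θ ty U0 T)ᶜ ⊆ U0ᶜ ∪ Tail ∪ Ab ∪ Cr ∪ Sp := by
    intro x hx
    simp only [mem_compl, servedRows, mem_filter, not_and] at hx
    simp only [mem_union, mem_compl, Tail, Ab, Cr, Sp, mem_filter, mem_univ, true_and]
    by_cases hxU : x ∈ U0
    · by_cases hxW : x.1 / l < W
      · have h1 := hx hxU hxW
        by_cases hS : l ≤ 16 * Θ * cnt l T (x.1 / l)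
        · exact Or.inr ⟨hxW, hS⟩
        · have hG : ¬ Lv.Good t Θ (U0.filter (fun y => ty y = ty x)) i (x.1 / l) := by
            intro hg
            exact h1 hg hS
          by_cases hP : Lv.Pres Θ (U0.filter (fun y => ty y = ty x)) i (x.1 / l)
          · have hC : Lv.Crit t Θ (U0.filter (fun y => ty y = ty x)) i (x.1 / l) := by
              by_contra hc
              exact hG ⟨hP, hc⟩
            exact Or.inl (Or.inr ⟨hxU, hxW, hC⟩)
          · exact Or.inl (Or.inl (Or.inr ⟨hxU, hxW, hP⟩))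
      · exact Or.inl (Or.inl (Or.inl (Or.inr hxW)))
    · exact Or.inl (Or.inl (Or.inl (Or.inl hxU)))
  have hTail : Tail.card ≤ n - Lv.l 0 := by
    have hWl : W * l = Lv.l 0 := Lv.W_mul_l i hi
    have hlpos : 1 ≤ l := Lv.hl i hi
    have : Tail.card ≤ (range (n - Lv.l 0)).card := by
      apply card_le_card_of_injOn (fun x => x.1 - Lv.l 0)
      · intro x hx
        simp only [Tail, coe_filter, mem_univ, true_and, Set.mem_ofPred_eq] at hx
        have h1 : Lv.l 0 ≤ x.1 := by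
          rw [← hWl]
          by_contra hc
          push Not at hc
          apply hx
          rw [Nat.div_lt_iff_lt_mul hlpos]
          exact hc
        have h2 := x.2
        refine mem_coe.2 (mem_range.2 ?_)
        show x.1 - Lv.l 0 < n - Lv.l 0
        omega
      · intro x hx y hy hxy
        simp only [Tail, coe_filter, mem_univ, true_and, Set.mem_ofPred_eq] at hx hy
        have h1 : Lv.l 0 ≤ x.1 := by
          rw [← hWl]
          by_contra hc
          push Not at hc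
          apply hx
          rw [Nat.div_lt_iff_lt_mul hlpos]
          exact hc
        have h2 : Lv.l 0 ≤ y.1 := by
          rw [← hWl]
          by_contra hc
          push Not at hc
          apply hy
          rw [Nat.div_lt_iff_lt_mul hlpos]
          exact hc
        simp only at hxy
        apply Fin.ext
        omega
    simpa using this
  have hAb : F * Ab.card ≤ n := by
    have h1 := Lv.absent_count i hi ty U0 (Θ := Θ)
    have h2 : t * (F * Ab.card) ≤ t * n := by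
      calc t * (F * Ab.card) = Θ * Ab.card := by rw [hΘF]; ring
        _ ≤ Θ * (U0.filter (fun x : Fin n => x.1 / Lv.l i < Lv.W i ∧
            ¬ Lv.Pres Θ (U0.filter (fun y => ty y = ty x)) i (x.1 / Lv.l i))).card := by
            gcongr
        _ ≤ t * Lv.l 0 := h1
        _ ≤ t * n := by gcongr
    exact Nat.le_of_mul_le_mul_left h2 ht
  have hCr : F * Cr.card ≤ n := by
    have h1 := Lv.crit_count i ty U0 (t := t) (Θ := Θ)
    refine le_trans ?_ hcrit
    gcongr
  have hSp : F * Sp.card ≤ n := by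
    have h1 := Lv.spoil_count i hi T (Θ := Θ)
    refine le_trans ?_ hT
    calc F * Sp.card ≤ F * (16 * Θ * T.card) := by
          gcongr
      _ = _ := by ring
  have hc1 := (card_le_card hsub).trans ((card_union_le _ _).trans
    (Nat.add_le_add_right ((card_union_le _ _).trans (Nat.add_le_add_right ((card_union_le _ _).trans
      (Nat.add_le_add_right (card_union_le _ _) _)) _)) _))
  calc F * (servedRows Lv i Θ ty U0 T)ᶜ.card
      ≤ F * (U0ᶜ.card + Tail.card + Ab.card + Cr.card + Sp.card) := by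
        gcongr
    _ = F * U0ᶜ.card + F * Tail.card + F * Ab.card + F * Cr.card + F * Sp.card := by ring
    _ ≤ n + n + n + n + n := by
        have : F * Tail.card ≤ n := le_trans (by gcongr) htail
        omega
    _ = 5 * n := by ring

lemma floor_half {a x : ℕ} (ha : 1 ≤ a) (hax : a ≤ x) : x ≤ 2 * a * (x / a) := by
  have h1 : x < a * (x / a + 1) := Nat.lt_mul_div_succ x ha
  have h2 : 1 ≤ x / a := Nat.div_pos hax ha
  nlinarith

/-- The numerical core: lower bounds for the floor parameters. -/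
lemma count_core {k n N I Q W' F Θ l' G : ℕ}
    (hI : 1 ≤ I) (hk : 1 ≤ k) (hF : 1 ≤ F) (hQ : 1 ≤ Q) (hΘ : 1 ≤ Θ) (hW' : 1 ≤ W')
    (hsize : I ^ k * k * F ≤ n) (hl' : 4 * Θ * Q ≤ l') (hnl : n ≤ 2 * (W' * l'))
    (hG : 32 * Θ * Q * W' * I ^ k * k * F ≤ G) (hGpos : 1 ≤ G)
    (It : ℕ) (hIt : I ≤ It)
    (hR : It ^ k * G ^ k * N < n ^ (2 * k)) :
    I ^ k * N < (n / (I ^ k * k * F)) ^ k * (l' / (4 * Θ * Q)) ^ k := by
  set m := n / (I ^ k * k * F) with hm
  set s := l' / (4 * Θ * Q) with hs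
  have ha : 1 ≤ I ^ k * k * F := by
    have : 1 ≤ I ^ k := Nat.one_le_pow _ _ hI
    exact Nat.mul_pos (Nat.mul_pos this hk) hF
  have hc : 1 ≤ 4 * Θ * Q := Nat.mul_pos (Nat.mul_pos (by norm_num) hΘ) hQ
  have h1 : n ≤ 2 * (I ^ k * k * F) * m := floor_half ha hsize
  have h2 : l' ≤ 2 * (4 * Θ * Q) * s := floor_half hc hl'
  have h3 : n * n ≤ G * (m * s) := by
    calc n * n ≤ (2 * (I ^ k * k * F) * m) * (2 * (W' * l')) := Nat.mul_le_mul h1 hnl
      _ ≤ (2 * (I ^ k * k * F) * m) * (2 * (W' * (2 * (4 * Θ * Q) * s))) := by gcongr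
      _ = (32 * Θ * Q * W' * I ^ k * k * F) * (m * s) := by ring
      _ ≤ _ := by gcongr
  have h4 : n ^ (2 * k) ≤ G ^ k * (m * s) ^ k := by
    calc n ^ (2 * k) = (n * n) ^ k := by rw [pow_mul, sq]
      _ ≤ (G * (m * s)) ^ k := Nat.pow_le_pow_left h3 _
      _ = _ := by rw [mul_pow]
  have h5 : G ^ k * (It ^ k * N) < G ^ k * (m * s) ^ k := by
    calc G ^ k * (It ^ k * N) = It ^ k * G ^ k * N := by ring
      _ < n ^ (2 * k) := hR
      _ ≤ _ := h4
  have h6 : It ^ k * N < (m * s) ^ k := Nat.lt_of_mul_lt_mul_left h5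
  calc I ^ k * N ≤ It ^ k * N := by gcongr
    _ < (m * s) ^ k := h6
    _ = _ := by rw [mul_pow]

/-- The final assembly at a chosen level, with generic numbers. -/
theorem level_finish {k : ℕ} (hk : 1 ≤ k) (H : Fin k → Fin k → Bool) (A : Fin n → Fin n → Bool)
    (hn : 1 ≤ n) {F t Θ Q I X s m : ℕ} (hF16 : 16 ≤ F) (ht1 : 1 ≤ t) (hQ1 : 1 ≤ Q)
    (hΘe : Θ = F * t) (hXe : X = 4 * F * I)
    (Lv : Levels) (i : ℕ) (hi : i < Lv.L) (hIe : I = Lv.W i * t * k)
    (hρeq : Lv.ρ i = 4 * k * Q ^ t)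
    (ty : Fin n → Fin t) (Thin0 : Finset (Fin n)) (hThin0 : F * Thin0.card < n)
    (hty0 : ∀ x y, x ∉ Thin0 → y ∉ Thin0 → ty x = ty y → dst A x y ≤ 4 * (n / (4 * F)))
    (col : Fin n → Fin Q) (T : Finset (Fin n)) (hT : (16 * Θ * F) * T.card < n)
    (hcol : ∀ x y, x ∉ T → y ∉ T → col x = col y → dst A x y ≤ 4 * (n / X))
    (hcrit : F * ∑ a : Fin t, Lv.critMass t Θ (Thin0ᶜ.filter (fun y => ty y = a)) i ≤ n)
    (hl0n : Lv.l 0 ≤ n) (htail : F * (n - Lv.l 0) ≤ n)
    (hs1 : s * (4 * Θ * Q) ≤ Lv.l (i + 1)) (hs2 : s ≤ n)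
    (hm : F * (I ^ k * (k * m)) ≤ n)
    (hcount : I ^ k * copies H A < m ^ k * s ^ k) :
    ∃ B : Fin n → Fin n → Bool, copies H B = 0 ∧ F * hamming A B ≤ 8 * n ^ 2 := by
  classical
  have hF1 : 1 ≤ F := by omega
  have hΘ1 : 1 ≤ Θ := by rw [hΘe]; exact Nat.mul_pos hF1 ht1
  have hIk : k ≤ Lv.W i * t * k :=
    Nat.le_mul_of_pos_left _ (Nat.mul_pos (Lv.W_pos i) ht1)
  subst hIe
  obtain ⟨z, Del, hDel, hord, hclean, hfree, hdst⟩ := level_reps hk H A Lv i hi
    ht1 hQ1 hΘ1 ty Thin0ᶜ T col hρeq (4 * (n / (4 * F))) (4 * (n / X)) hcol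
    (by
      intro x hx y hy hxy
      simp only [mem_compl] at hx hy
      exact hty0 x y hx hy hxy)
    s m hs1 hs2 hIk hcount
  have hFDel : F * Del.card ≤ 2 * n := by
    have h2 : F * ((Lv.W i * t * k) * (4 * (n / X))) ≤ n := by
      calc _ = X * (n / X) := by rw [hXe]; ring
        _ ≤ n := Nat.mul_div_le _ _
    calc F * Del.card ≤ F * ((Lv.W i * t * k) ^ k * (k * m) + (Lv.W i * t * k) * (4 * (n / X))) := by
          gcongr
      _ = F * ((Lv.W i * t * k) ^ k * (k * m)) + F * ((Lv.W i * t * k) * (4 * (n / X))) := by ring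
      _ ≤ _ := by omega
  have hFSv := served_compl (t := t) (Θ := Θ) (F := F) ht1 hΘe Lv i hi.le ty Thin0ᶜ T
    (by simp only [compl_compl]; exact hThin0.le) htail hl0n hcrit hT.le
  have hcardn : ∀ S : Finset (Fin n), S.card ≤ n := by
    intro S
    calc S.card ≤ (univ : Finset (Fin n)).card := card_le_card (subset_univ _)
      _ = n := by simp
  have hSvne : (servedRows Lv i Θ ty Thin0ᶜ T).Nonempty := by
    by_contra hcon
    rw [not_nonempty_iff_eq_empty] at hcon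
    rw [hcon, compl_empty, card_univ, Fintype.card_fin] at hFSv
    nlinarith
  have hKpne : (Delᶜ).Nonempty := by
    by_contra hcon
    rw [not_nonempty_iff_eq_empty] at hcon
    have h1 : Del = univ := by
      rw [← compl_compl Del, hcon, compl_empty]
    rw [h1, card_univ, Fintype.card_fin] at hFDel
    nlinarith
  obtain ⟨B, hB, hham⟩ := assemble hk H A _ (Delᶜ) hSvne hKpne z hord
    (fun x hx c hc a => hclean x hx c (mem_compl.1 hc) a)
    (fun r hr hrz c hc hcD => hfree r hr hrz c hc (fun j => mem_compl.1 (hcD j)))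
  refine ⟨B, hB, ?_⟩
  rw [compl_compl] at hham
  have hsumd : F * ∑ x ∈ servedRows Lv i Θ ty Thin0ᶜ T, dst A x (z x ⟨0, hk⟩) ≤ n * n := by
    calc F * ∑ x ∈ servedRows Lv i Θ ty Thin0ᶜ T, dst A x (z x ⟨0, hk⟩)
        ≤ F * ∑ _x ∈ servedRows Lv i Θ ty Thin0ᶜ T, 4 * (n / (4 * F)) := by
          gcongr with x hx
          exact hdst x hx
      _ = (servedRows Lv i Θ ty Thin0ᶜ T).card * (4 * F * (n / (4 * F))) := by simp; ring
      _ ≤ n * n := Nat.mul_le_mul (hcardn _) (Nat.mul_div_le _ _)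
  calc F * hamming A B
      ≤ F * (n * (Del.card + (servedRows Lv i Θ ty Thin0ᶜ T)ᶜ.card) +
          ∑ x ∈ servedRows Lv i Θ ty Thin0ᶜ T, dst A x (z x ⟨0, hk⟩)) := by
        gcongr
    _ = n * (F * Del.card + F * (servedRows Lv i Θ ty Thin0ᶜ T)ᶜ.card) +
          F * ∑ x ∈ servedRows Lv i Θ ty Thin0ᶜ T, dst A x (z x ⟨0, hk⟩) := by ring
    _ ≤ n * (2 * n + 5 * n) + n * n := by gcongr
    _ = 8 * n ^ 2 := by ring

/-- Facts on the size of `n` forced by the hypothesis. -/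
lemma size_facts {k n N E : ℕ} (hk : 1 ≤ k) (hN1 : 1 ≤ N) (hΔ : N * pΔ k E < n ^ (2 * k)) :
    pN1 k E < n ∧ pCl k E * N < n ^ (2 * k) ∧ pR k E * N < n ^ (2 * k) := by
  have h2k : 2 * k ≠ 0 := by omega
  refine ⟨?_, ?_, ?_⟩
  · apply lt_of_pow_lt_pow_left₀ (2 * k) (Nat.zero_le _)
    calc pN1 k E ^ (2 * k) ≤ pΔ k E := by unfold pΔ; omega
      _ ≤ N * pΔ k E := Nat.le_mul_of_pos_left _ hN1
      _ < _ := hΔ
  · calc pCl k E * N ≤ pΔ k E * N := by
          gcongr
          unfold pΔ; omega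
      _ = N * pΔ k E := by ring
      _ < _ := hΔ
  · calc pR k E * N ≤ pΔ k E * N := by
          gcongr
          unfold pΔ; omega
      _ = N * pΔ k E := by ring
      _ < _ := hΔ

set_option maxHeartbeats 1000000 in
/-- The removal theorem with explicit parameters. -/
theorem main_param {k : ℕ} (hk : 1 ≤ k) (H : Fin k → Fin k → Bool) (A : Fin n → Fin n → Bool)
    {E : ℕ} (hE : 1 ≤ E) (hN1 : 1 ≤ copies H A) (hΔ : copies H A * pΔ k E < n ^ (2 * k)) :
    ∃ B : Fin n → Fin n → Bool, copies H B = 0 ∧ E * hamming A B ≤ n ^ 2 := by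
  classical
  obtain ⟨hbig, hClN, hRN⟩ := size_facts hk hN1 hΔ
  have hn : 1 ≤ n := by omega
  have hF1 : 1 ≤ pF E := pF_pos hE
  have hF16 : 16 ≤ pF E := pF_ge hE
  have ht1 : 1 ≤ pt k E := pt_pos hE
  have hΘ1 : 1 ≤ pΘ k E := pΘ_pos hE
  have hY1 : 1 ≤ pY k E := pY_pos hE
  have hPi1 : 1 ≤ pPi k E := pPi_pos hk hE
  have hQt1 : 1 ≤ pQtop k E := gt_pos _ _ _ hY1
  have hIt1 : 1 ≤ pItop k E := Nat.mul_pos (Nat.mul_pos hPi1 ht1) hk
  have hN1def : pN1 k E = pPi k E * (4 * pΘ k E * pQtop k E + pF E + 1) +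
      pItop k E ^ k * k * pF E := rfl
  have hs1 : pPi k E * (4 * pΘ k E * pQtop k E) ≤ n := by
    have : pPi k E * (4 * pΘ k E * pQtop k E) ≤ pPi k E * (4 * pΘ k E * pQtop k E + pF E + 1) := by
      gcongr; omega
    omega
  have hs2 : pF E * pPi k E ≤ n := by
    have : pPi k E * pF E ≤ pPi k E * (4 * pΘ k E * pQtop k E + pF E + 1) := by
      gcongr; omega
    have h3 : pF E * pPi k E = pPi k E * pF E := by ring
    omega
  have hs3 : pItop k E ^ k * k * pF E ≤ n := by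
    omega
  have hbQ : 4 * pΘ k E * pQtop k E ≤ n / pPi k E := by
    rw [Nat.le_div_iff_mul_le hPi1, mul_comm]
    exact hs1
  have hb1 : 1 ≤ n / pPi k E := by
    have : 1 ≤ 4 * pΘ k E * pQtop k E := Nat.mul_pos (Nat.mul_pos (by norm_num) hΘ1) hQt1
    omega
  have hl0 := mkLevels_top k E (n / pPi k E) hk hE hb1
  generalize hLv : mkLevels k E (n / pPi k E) hk hE hb1 = Lv at hl0
  have hLvL : Lv.L = pLL k E := by rw [← hLv]; rfl
  have hLvW : ∀ i, Lv.W i = pW k E i := by intro i; rw [← hLv]; rfl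
  have hLvρ : ∀ i, Lv.ρ i = pρ k E (pW k E i) := by intro i; rw [← hLv]; rfl
  have hl'b : ∀ i, n / pPi k E ≤ Lv.l i := by
    intro i
    rw [← hLv]
    simp only [mkLevels]
    apply Nat.le_mul_of_pos_right
    exact Finset.prod_pos (fun j _ => pρ_pos hk hE _)
  have hl0n : Lv.l 0 ≤ n := by
    rw [hl0]; exact Nat.mul_div_le _ _
  have hnl0 : n < Lv.l 0 + pPi k E := by
    rw [hl0]
    have := Nat.lt_mul_div_succ n hPi1
    nlinarith
  have hnl0' : n ≤ 2 * Lv.l 0 := by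
    rw [hl0] at hnl0 ⊢
    nlinarith
  have htail : pF E * (n - Lv.l 0) ≤ n := by
    have h1 : n - Lv.l 0 ≤ pPi k E := by omega
    calc pF E * (n - Lv.l 0) ≤ pF E * pPi k E := by gcongr
      _ ≤ n := hs2
  -- the coarse clustering
  have hXF : 4 * pF E ≤ pXtop k E := four_F_le_pXtop hk hE
  have hclNat : ∀ X Y', X ≤ pXtop k E → Y' ≤ pY k E →
      2 * (gr k X * gp k X * Y') ^ k * copies H A < n ^ (2 * k) := by
    intro X Y' hX hY'
    refine lt_of_le_of_lt ?_ hClN
    unfold pCl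
    have h1 := gr_mono k hX
    have h2 := gp_mono k hX
    gcongr
  have hcl0 : ∃ (ty : Fin n → Fin (pt k E)) (Thin0 : Finset (Fin n)), pF E * Thin0.card < n ∧
      ∀ x y, x ∉ Thin0 → y ∉ Thin0 → ty x = ty y → dst A x y ≤ 4 * (n / (4 * pF E)) :=
    cluster hk H A hn (4 * pF E) (pF E) (by omega) hF1 (hclNat _ _ hXF (pF_le_pY hE))
  obtain ⟨ty, Thin0, hThin0, hty0⟩ := hcl0
  -- the level
  obtain ⟨i, hi, hcrit⟩ := Lv.pick_level (t := pt k E) (Θ := pΘ k E) (F := pF E) hF1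
    (by rw [hLvL]; rfl) (by rw [hLvL]; exact pLL_pos hE) ty Thin0ᶜ
  have hiL : i < pLL k E := by rw [← hLvL]; exact hi
  have hw1 : 1 ≤ pW k E i := pW_pos hk hE i
  have hQ1 : 1 ≤ pQ k E (pW k E i) := pQ_pos hE _
  have hX1 : 1 ≤ pX k E (pW k E i) := by
    unfold pX
    exact Nat.mul_pos (Nat.mul_pos (by norm_num) hF1) (Nat.mul_pos (Nat.mul_pos hw1 ht1) hk)
  have hXtop : pX k E (pW k E i) ≤ pXtop k E := pX_mono (pW_le_pPi hk hE hiL.le)
  have hcl1 : ∃ (col : Fin n → Fin (pQ k E (pW k E i))) (T : Finset (Fin n)),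
      pY k E * T.card < n ∧
      ∀ x y, x ∉ T → y ∉ T → col x = col y → dst A x y ≤ 4 * (n / pX k E (pW k E i)) :=
    cluster hk H A hn _ (pY k E) hX1 hY1 (hclNat _ _ hXtop le_rfl)
  obtain ⟨col, T, hT, hcol⟩ := hcl1
  have hI1 : 1 ≤ pW k E i * pt k E * k := Nat.mul_pos (Nat.mul_pos hw1 ht1) hk
  have hItop : pW k E i * pt k E * k ≤ pItop k E := pI_le_top hk hE hiL.le
  have hQtop : pQ k E (pW k E i) ≤ pQtop k E := pQ_le_top hk hE hiL.le
  have hW'Pi : pW k E (i + 1) ≤ pPi k E := pW_le_pPi hk hE hiL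
  have hW'1 : 1 ≤ pW k E (i + 1) := pW_pos hk hE _
  have hW'l' : pW k E (i + 1) * Lv.l (i + 1) = Lv.l 0 := by
    have := Lv.W_mul_l (i + 1) (by rw [hLvL]; exact hiL)
    rwa [hLvW] at this
  have hl'n : Lv.l (i + 1) ≤ n := by
    calc Lv.l (i + 1) ≤ pW k E (i + 1) * Lv.l (i + 1) := Nat.le_mul_of_pos_left _ hW'1
      _ = Lv.l 0 := hW'l'
      _ ≤ n := hl0n
  have hsize : (pW k E i * pt k E * k) ^ k * k * pF E ≤ n := by
    refine le_trans ?_ hs3
    gcongr
  have hcount := count_core (N := copies H A) hI1 hk hF1 hQ1 hΘ1 hW'1 hsize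
      (le_trans (by gcongr) (hbQ.trans (hl'b (i + 1)))) (by rw [hW'l']; exact hnl0') (G := pG k E)
      (by unfold pG; gcongr)
      (by
        unfold pG
        have h1 : 1 ≤ pItop k E ^ k := Nat.one_le_pow _ _ hIt1
        exact Nat.mul_pos (Nat.mul_pos (Nat.mul_pos (Nat.mul_pos (Nat.mul_pos
          (Nat.mul_pos (by norm_num) hΘ1) hQt1) hPi1) h1) hk) hF1)
      (pItop k E) hItop hRN
  have hmdiv : pF E * ((pW k E i * pt k E * k) ^ k * (k * (n / ((pW k E i * pt k E * k) ^ k * k * pF E))))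
      ≤ n := by
    calc _ = ((pW k E i * pt k E * k) ^ k * k * pF E) *
          (n / ((pW k E i * pt k E * k) ^ k * k * pF E)) := by ring
      _ ≤ n := Nat.mul_div_le _ _
  obtain ⟨B, hB, hfinal⟩ := level_finish hk H A hn (F := pF E) (t := pt k E) (Θ := pΘ k E)
    (Q := pQ k E (pW k E i)) (I := pW k E i * pt k E * k) (X := pX k E (pW k E i))
    (s := Lv.l (i + 1) / (4 * pΘ k E * pQ k E (pW k E i)))
    (m := n / ((pW k E i * pt k E * k) ^ k * k * pF E))
    hF16 ht1 hQ1 rfl rfl Lv i hi (by rw [hLvW]) (by rw [hLvρ]; rfl) ty Thin0 hThin0 hty0 col T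
    hT hcol hcrit hl0n htail (Nat.div_mul_le_self _ _) ((Nat.div_le_self _ _).trans hl'n) hmdiv
    hcount
  refine ⟨B, hB, ?_⟩
  have hFe : pF E = 16 * E := rfl
  rw [hFe] at hfinal
  nlinarith

end Vale.Agent.Lib.P037_helper52
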