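import Mathlib

/-! Large shattered row families contain every pattern: the VC-dimension step of the
general removal theorem. -/

namespace Vale.Agent.Lib.P037_helper52

open Finset

lemma card_small_subsets_le {β : Type*} [DecidableEq β] (T : Finset β) (d : ℕ) :
    (T.powerset.filter (fun Q => Q.card ≤ d)).card ≤ (T.card + 1) ^ d := by
  induction d with
  | zero =>
    have : (T.powerset.filter (fun Q => Q.card ≤ 0)) ⊆ {∅} := by
      intro Q hQ
      simp only [mem_filter, Nat.le_zero, card_eq_zero] at hQ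
      simp [hQ.2]
    simpa using card_le_card this
  | succ d ih =>
    have hsub : T.powerset.filter (fun Q => Q.card ≤ d + 1) ⊆
        T.powerset.filter (fun Q => Q.card ≤ d) ∪ T.powersetCard (d + 1) := by
      intro Q hQ
      simp only [mem_filter, mem_powerset] at hQ
      simp only [mem_union, mem_filter, mem_powerset, mem_powersetCard]
      by_cases h : Q.card ≤ d
      · exact Or.inl ⟨hQ.1, h⟩
      · exact Or.inr ⟨hQ.1, by omega⟩
    calc (T.powerset.filter (fun Q => Q.card ≤ d + 1)).card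
        ≤ (T.powerset.filter (fun Q => Q.card ≤ d)).card + (T.powersetCard (d + 1)).card :=
          (card_le_card hsub).trans (card_union_le _ _)
      _ ≤ (T.card + 1) ^ d + T.card ^ (d + 1) := by
          gcongr
          rw [card_powersetCard]
          exact Nat.choose_le_pow _ _
      _ ≤ (T.card + 1) ^ d + (T.card + 1) ^ d * T.card := by
          gcongr
          rw [pow_succ]
          gcongr
          omega
      _ = (T.card + 1) ^ (d + 1) := by ring

lemma exists_blocks {α : Type*} [LinearOrder α] (R : Finset α) (k m : ℕ)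
    (h : k * m ≤ R.card) :
    ∃ B : Fin k → Finset α, (∀ i, B i ⊆ R) ∧ (∀ i, (B i).card = m) ∧
      ∀ i j, i < j → ∀ x ∈ B i, ∀ y ∈ B j, x < y := by
  classical
  let e := R.orderEmbOfFin rfl
  have hb : ∀ (i : Fin k) (j : Fin m), i.1 * m + j.1 < R.card := by
    intro i j
    have h1 : (i.1 + 1) * m ≤ k * m := Nat.mul_le_mul_right _ i.2
    have h2 := j.2
    nlinarith
  let f : (i : Fin k) → Fin m → α := fun i j => e ⟨i.1 * m + j.1, hb i j⟩
  refine ⟨fun i => univ.image (f i), ?_, ?_, ?_⟩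
  · intro i x hx
    obtain ⟨j, -, rfl⟩ := mem_image.1 hx
    exact orderEmbOfFin_mem R rfl _
  · intro i
    rw [card_image_of_injective]
    · simp
    · intro j j' hjj
      have := e.injective hjj
      simp only [Fin.mk.injEq] at this
      exact Fin.ext (by omega)
  · intro i i' hii x hx y hy
    obtain ⟨j, -, rfl⟩ := mem_image.1 hx
    obtain ⟨j', -, rfl⟩ := mem_image.1 hy
    apply e.strictMono
    show i.1 * m + j.1 < i'.1 * m + j'.1
    have h1 : (i.1 + 1) * m ≤ i'.1 * m := Nat.mul_le_mul_right _ hii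
    have h2 := j.2
    nlinarith

/-- Iterated Harris-Kleitman for `k` lower families inside the powerset of `S`. -/
lemma iterated_hk {β : Type*} [DecidableEq β] (S : Finset β) (k m : ℕ)
    (G : Fin k → Finset (Finset β))
    (hlow : ∀ i, IsLowerSet (G i : Set (Finset β)))
    (hsub : ∀ i, ∀ Q ∈ G i, Q ⊆ S) (hm : ∀ i, m ≤ (G i).card) :
    2 ^ S.card * m ^ k ≤
      (2 ^ S.card) ^ k * (S.powerset.filter (fun Q => ∀ i, Q ∈ G i)).card := by
  classical
  -- prefix families
  have key : ∀ j : ℕ, j ≤ k → 2 ^ S.card * m ^ j ≤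
      (2 ^ S.card) ^ j *
        (S.powerset.filter (fun Q => ∀ i : Fin k, i.1 < j → Q ∈ G i)).card := by
    intro j
    induction j with
    | zero =>
      intro _
      simp
    | succ j ih =>
      intro hj
      have ih' := ih (by omega)
      set Ij := S.powerset.filter (fun Q => ∀ i : Fin k, i.1 < j → Q ∈ G i) with hIj
      let i0 : Fin k := ⟨j, by omega⟩
      have hlowI : IsLowerSet (Ij : Set (Finset β)) := by
        intro Q Q' hle hQ
        simp only [hIj, coe_filter, Set.mem_ofPred_eq, mem_powerset] at hQ ⊢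
        refine ⟨Subset.trans hle hQ.1, fun i hi => ?_⟩
        exact hlow i hle (hQ.2 i hi)
      have hk := IsLowerSet.le_card_inter_finset' hlowI (hlow i0) (s := S)
        (fun Q hQ => by
          simp only [hIj, mem_filter, mem_powerset] at hQ
          exact hQ.1) (hsub i0)
      have hnext : Ij ∩ G i0 ⊆
          S.powerset.filter (fun Q => ∀ i : Fin k, i.1 < j + 1 → Q ∈ G i) := by
        intro Q hQ
        simp only [hIj, mem_inter, mem_filter, mem_powerset] at hQ ⊢
        refine ⟨hQ.1.1, fun i hi => ?_⟩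
        by_cases hij : i.1 < j
        · exact hQ.1.2 i hij
        · have : i = i0 := Fin.ext (by show i.1 = j; omega)
          rw [this]; exact hQ.2
      calc 2 ^ S.card * m ^ (j + 1) = (2 ^ S.card * m ^ j) * m := by ring
        _ ≤ ((2 ^ S.card) ^ j * Ij.card) * (G i0).card := by
            gcongr
            exact hm i0
        _ = (2 ^ S.card) ^ j * (Ij.card * (G i0).card) := by ring
        _ ≤ (2 ^ S.card) ^ j * (2 ^ S.card * (Ij ∩ G i0).card) := by gcongr
        _ ≤ (2 ^ S.card) ^ j * (2 ^ S.card *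
              (S.powerset.filter (fun Q => ∀ i : Fin k, i.1 < j + 1 → Q ∈ G i)).card) := by
            gcongr
        _ = _ := by ring
  have := key k le_rfl
  have heq : S.powerset.filter (fun Q => ∀ i : Fin k, i.1 < k → Q ∈ G i) =
      S.powerset.filter (fun Q => ∀ i, Q ∈ G i) := by
    apply filter_congr
    intro Q _
    exact ⟨fun h i => h i i.2, fun h i _ => h i⟩
  rwa [heq] at this

lemma numeric_shatter (k : ℕ) (hk : 1 ≤ k) :
    (4 * k ^ 2 + 1) ^ (k - 1) * (2 * k) ^ k < 2 ^ (4 * k ^ 2) := by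
  obtain ⟨j, rfl⟩ : ∃ j, k = j + 1 := ⟨k - 1, by omega⟩
  simp only [Nat.add_sub_cancel]
  have h2k : 2 * (j + 1) ≤ 2 ^ (j + 1) := by
    have : j + 1 < 2 ^ (j + 1) := Nat.lt_two_pow_self
    have h3 : 2 ^ (j + 1) = 2 * 2 ^ j := by ring
    have h4 : j + 1 ≤ 2 ^ j := by
      have : j < 2 ^ j := Nat.lt_two_pow_self
      omega
    omega
  have h4k : 4 * (j + 1) ^ 2 + 1 ≤ 2 ^ (2 * (j + 1) + 1) := by
    have h5 : (2 * (j + 1)) ^ 2 ≤ (2 ^ (j + 1)) ^ 2 := Nat.pow_le_pow_left h2k 2
    have h6 : (2 ^ (j + 1)) ^ 2 = 2 ^ (2 * (j + 1)) := by rw [← pow_mul]; ring_nf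
    have h7 : 2 ^ (2 * (j + 1) + 1) = 2 * 2 ^ (2 * (j + 1)) := by ring
    have h8 : 1 ≤ 2 ^ (2 * (j + 1)) := Nat.one_le_two_pow
    nlinarith
  calc (4 * (j + 1) ^ 2 + 1) ^ j * (2 * (j + 1)) ^ (j + 1)
      ≤ (2 ^ (2 * (j + 1) + 1)) ^ j * (2 ^ (j + 1)) ^ (j + 1) := by gcongr
    _ = 2 ^ ((2 * (j + 1) + 1) * j + (j + 1) * (j + 1)) := by
        rw [← pow_mul, ← pow_mul, ← pow_add]
    _ < 2 ^ (4 * (j + 1) ^ 2) := by
        apply Nat.pow_lt_pow_right (by norm_num)
        nlinarith

/-- A family of `2 ^ D` rows realising all traces on a `D`-set contains the pattern. -/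
theorem copy_of_shattered {α β : Type*} [LinearOrder α] [LinearOrder β] (k : ℕ) (hk : 1 ≤ k)
    (H : Fin k → Fin k → Bool) (A : α → β → Bool) (U : Finset α) (S : Finset β)
    (hS : S.card = 4 * k ^ 2)
    (hsh : ∀ P, P ⊆ S → ∃ x ∈ U, S.filter (fun c => A x c = true) = P) :
    ∃ (a : Fin k → α) (b : Fin k → β), StrictMono a ∧ StrictMono b ∧ (∀ i, a i ∈ U) ∧
      (∀ j, b j ∈ S) ∧ ∀ i j, A (a i) (b j) = H i j := by
  classical
  set D := 4 * k ^ 2 with hD
  let σ : α → Finset β := fun x => S.filter (fun c => A x c = true)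
  -- choose a row per pattern
  have hch : ∀ P : Finset β, ∃ x, P ⊆ S → x ∈ U ∧ σ x = P := by
    intro P
    by_cases hP : P ⊆ S
    · obtain ⟨x, hx, hxP⟩ := hsh P hP
      exact ⟨x, fun _ => ⟨hx, hxP⟩⟩
    · have hne : U.Nonempty := by
        obtain ⟨x, hx, -⟩ := hsh ∅ (empty_subset _)
        exact ⟨x, hx⟩
      exact ⟨hne.choose, fun h => absurd h hP⟩
  choose r hr using hch
  let R := S.powerset.image r
  have hRcard : R.card = 2 ^ D := by
    rw [card_image_of_injOn, card_powerset, hS]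
    intro P hP P' hP' hPP
    have h1 := (hr P (mem_powerset.1 hP)).2
    have h2 := (hr P' (mem_powerset.1 hP')).2
    rw [← h1, ← h2, hPP]
  have hRU : R ⊆ U := by
    intro x hx
    obtain ⟨P, hP, rfl⟩ := mem_image.1 hx
    exact (hr P (mem_powerset.1 hP)).1
  have hσinj : Set.InjOn σ (R : Set α) := by
    intro x hx y hy hxy
    obtain ⟨P, hP, rfl⟩ := mem_image.1 (mem_coe.1 hx)
    obtain ⟨P', hP', rfl⟩ := mem_image.1 (mem_coe.1 hy)
    rw [(hr P (mem_powerset.1 hP)).2, (hr P' (mem_powerset.1 hP')).2] at hxy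
    rw [hxy]
  set m := 2 ^ D / k with hm
  have hkm : k * m ≤ R.card := by
    rw [hRcard]; exact Nat.mul_div_le _ _
  obtain ⟨B, hBR, hBc, hBo⟩ := exists_blocks R k m hkm
  -- block families
  let F : Fin k → Finset (Finset β) := fun i => (B i).image σ
  have hFc : ∀ i, (F i).card = m := by
    intro i
    rw [card_image_of_injOn (hσinj.mono (by exact_mod_cast hBR i)), hBc]
  let G : Fin k → Finset (Finset β) := fun i => (F i).shatterer
  have hGlow : ∀ i, IsLowerSet (G i : Set (Finset β)) := fun i => isLowerSet_shatterer _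
  have hGsub : ∀ i, ∀ Q ∈ G i, Q ⊆ S := by
    intro i Q hQ
    obtain ⟨t, ht, hQt⟩ := (mem_shatterer.1 hQ).exists_superset
    obtain ⟨x, _, rfl⟩ := mem_image.1 ht
    exact hQt.trans (filter_subset _ _)
  have hGm : ∀ i, m ≤ (G i).card := by
    intro i
    calc m = (F i).card := (hFc i).symm
      _ ≤ _ := card_le_card_shatterer _
  have hk' := iterated_hk S k m G hGlow hGsub hGm
  rw [hS] at hk'
  -- find a large common shattered set
  have hex : ∃ Q ∈ S.powerset.filter (fun Q => ∀ i, Q ∈ G i), k ≤ Q.card := by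
    by_contra hcon
    push Not at hcon
    have hsubs : S.powerset.filter (fun Q => ∀ i, Q ∈ G i) ⊆
        S.powerset.filter (fun Q => Q.card ≤ k - 1) := by
      intro Q hQ
      have := hcon Q hQ
      simp only [mem_filter, mem_powerset] at hQ ⊢
      exact ⟨hQ.1, by omega⟩
    have hcard := (card_le_card hsubs).trans (card_small_subsets_le S (k - 1))
    rw [hS] at hcard
    have hnum := numeric_shatter k hk
    rw [← hD] at hnum
    -- 2 k m ≥ 2 ^ D
    have hkpos : 0 < k := hk
    have hDk : k ≤ 2 ^ D := by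
      have : k < 2 ^ k := Nat.lt_two_pow_self
      have h2 : 2 ^ k ≤ 2 ^ D := Nat.pow_le_pow_right (by norm_num) (by rw [hD]; nlinarith)
      omega
    have h2km : 2 ^ D ≤ 2 * k * m := by
      have h1 : 2 ^ D < k * (2 ^ D / k) + k := by
        have := Nat.div_add_mod (2 ^ D) k
        have := Nat.mod_lt (2 ^ D) hkpos
        omega
      have h2 : 1 ≤ 2 ^ D / k := Nat.div_pos hDk hkpos
      rw [← hm] at h1 h2
      nlinarith
    have h3 : 2 ^ D * (2 ^ D) ^ k ≤ (2 ^ D) ^ k * ((D + 1) ^ (k - 1) * (2 * k) ^ k) := by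
      calc 2 ^ D * (2 ^ D) ^ k ≤ 2 ^ D * (2 * k * m) ^ k := by gcongr
        _ = (2 ^ D * m ^ k) * (2 * k) ^ k := by rw [mul_pow]; ring
        _ ≤ ((2 ^ D) ^ k * (S.powerset.filter (fun Q => ∀ i, Q ∈ G i)).card) * (2 * k) ^ k := by
            gcongr
        _ ≤ ((2 ^ D) ^ k * (D + 1) ^ (k - 1)) * (2 * k) ^ k := by gcongr
        _ = _ := by ring
    have hpos : 0 < (2 ^ D) ^ k := by positivity
    have h4 : 2 ^ D ≤ (D + 1) ^ (k - 1) * (2 * k) ^ k := by
      have : (2 ^ D) ^ k * 2 ^ D ≤ (2 ^ D) ^ k * ((D + 1) ^ (k - 1) * (2 * k) ^ k) := by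
        rwa [mul_comm] at h3
      exact Nat.le_of_mul_le_mul_left this hpos
    omega
  obtain ⟨Q0, hQ0, hQ0k⟩ := hex
  obtain ⟨Q, hQQ0, hQk⟩ := exists_subset_card_eq hQ0k
  simp only [mem_filter, mem_powerset] at hQ0
  have hQS : Q ⊆ S := hQQ0.trans hQ0.1
  have hQsh : ∀ i, (F i).Shatters Q := fun i =>
    Shatters.mono_right hQQ0 (mem_shatterer.1 (hQ0.2 i))
  let b : Fin k → β := Q.orderEmbOfFin hQk
  have hb : StrictMono b := (Q.orderEmbOfFin hQk).strictMono
  have hbQ : ∀ j, b j ∈ Q := fun j => orderEmbOfFin_mem Q hQk j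
  have hch2 : ∀ i : Fin k, ∃ x ∈ B i, ∀ j, A x (b j) = H i j := by
    intro i
    let P := Q.filter (fun c => ∃ j, c = b j ∧ H i j = true)
    obtain ⟨u, hu, huP⟩ := hQsh i (filter_subset _ _ : P ⊆ Q)
    obtain ⟨x, hx, rfl⟩ := mem_image.1 hu
    refine ⟨x, hx, fun j => ?_⟩
    have hmemiff : b j ∈ Q ∩ σ x ↔ b j ∈ P := by rw [huP]
    have h1 : b j ∈ Q ∩ σ x ↔ A x (b j) = true := by
      simp only [σ, mem_inter, mem_filter]
      exact ⟨fun h => h.2.2, fun h => ⟨hbQ j, hQS (hbQ j), h⟩⟩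
    have h2 : b j ∈ P ↔ H i j = true := by
      simp only [P, mem_filter]
      constructor
      · rintro ⟨_, j', hj', hH⟩
        rwa [hb.injective hj']
      · intro h
        exact ⟨hbQ j, j, rfl, h⟩
    have h3 : A x (b j) = true ↔ H i j = true := h1.symm.trans (hmemiff.trans h2)
    cases h4 : A x (b j) <;> cases h5 : H i j <;> simp_all
  choose a ha hap using hch2
  refine ⟨a, b, ?_, hb, ?_, ?_, ?_⟩
  · intro i j hij
    exact hBo i j hij _ (ha i) _ (ha j)
  · intro i
    exact hRU (hBR i (ha i))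
  · intro j
    exact hQS (hbQ j)
  · intro i j
    exact hap i j

/-- Shatter to copy: many rows pairwise separated by few columns contain every pattern. -/
theorem shatter_copy {α β : Type*} [LinearOrder α] [LinearOrder β] (k : ℕ) (hk : 1 ≤ k)
    (H : Fin k → Fin k → Bool) (A : α → β → Bool) (U : Finset α) (T : Finset β)
    (hsep : ∀ x ∈ U, ∀ y ∈ U, x ≠ y → ∃ c ∈ T, A x c ≠ A y c)
    (hcard : (T.card + 1) ^ (4 * k ^ 2) < U.card) :
    ∃ (a : Fin k → α) (b : Fin k → β), StrictMono a ∧ StrictMono b ∧ (∀ i, a i ∈ U) ∧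
      (∀ j, b j ∈ T) ∧ ∀ i j, A (a i) (b j) = H i j := by
  classical
  let tr : α → Finset β := fun x => T.filter (fun c => A x c = true)
  let F := U.image tr
  have hinj : Set.InjOn tr (U : Set α) := by
    intro x hx y hy hxy
    by_contra hne
    obtain ⟨c, hc, hcne⟩ := hsep x (mem_coe.1 hx) y (mem_coe.1 hy) hne
    have h1 : c ∈ tr x ↔ c ∈ tr y := by
      rw [hxy]
    simp only [tr, mem_filter, hc, true_and] at h1
    cases h2 : A x c <;> cases h3 : A y c <;> simp_all
  have hFc : F.card = U.card := card_image_of_injOn hinj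
  have hFsub : ∀ X ∈ F, X ⊆ T := by
    intro X hX
    obtain ⟨x, _, rfl⟩ := mem_image.1 hX
    exact filter_subset _ _
  have hex : ∃ S ∈ F.shatterer, 4 * k ^ 2 ≤ S.card := by
    by_contra hcon
    push Not at hcon
    have hsub : F.shatterer ⊆ T.powerset.filter (fun Q => Q.card ≤ 4 * k ^ 2) := by
      intro S hS
      have h1 := hcon S hS
      obtain ⟨t, ht, hSt⟩ := (mem_shatterer.1 hS).exists_superset
      simp only [mem_filter, mem_powerset]
      exact ⟨hSt.trans (hFsub t ht), h1.le⟩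
    have h2 := (card_le_card_shatterer F).trans
      ((card_le_card hsub).trans (card_small_subsets_le T _))
    omega
  obtain ⟨S0, hS0, hS0c⟩ := hex
  obtain ⟨S, hSS0, hSc⟩ := exists_subset_card_eq hS0c
  have hsh : F.Shatters S := Shatters.mono_right hSS0 (mem_shatterer.1 hS0)
  have hSsub : S ⊆ T := by
    obtain ⟨t, ht, hSt⟩ := hsh.exists_superset
    exact hSt.trans (hFsub t ht)
  have hsh' : ∀ P, P ⊆ S → ∃ x ∈ U, S.filter (fun c => A x c = true) = P := by
    intro P hP
    obtain ⟨X, hX, hXP⟩ := hsh hP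
    obtain ⟨x, hx, rfl⟩ := mem_image.1 hX
    refine ⟨x, hx, ?_⟩
    rw [← hXP]
    ext c
    simp only [tr, mem_filter, mem_inter]
    constructor
    · rintro ⟨h1, h2⟩
      exact ⟨h1, hSsub h1, h2⟩
    · rintro ⟨h1, _, h2⟩
      exact ⟨h1, h2⟩
  obtain ⟨a, b, ha, hb, haU, hbS, hab⟩ := copy_of_shattered k hk H A U S hSc hsh'
  exact ⟨a, b, ha, hb, haU, fun j => hSsub (hbS j), hab⟩

end Vale.Agent.Lib.P037_helper52
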