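import Vale.Agent.Lib.P037.Defs
import Vale.Agent.Lib.P037_helper52.Shatter
import Vale.Agent.Lib.P037_helper52.Fiber

/-! Random sampling of rows and columns: few copies force most rows to have large balls. -/

namespace Vale.Agent.Lib.P037_helper52

open Finset
open Vale.Agent.Lib.P037

variable {n : ℕ}

/-- Hamming distance of two rows. -/
def dst (A : Fin n → Fin n → Bool) (x y : Fin n) : ℕ :=
  (univ.filter (fun c => A x c ≠ A y c)).card

lemma dst_self (A : Fin n → Fin n → Bool) (x : Fin n) : dst A x x = 0 := by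
  simp [dst]

lemma dst_comm (A : Fin n → Fin n → Bool) (x y : Fin n) : dst A x y = dst A y x := by
  simp only [dst, ne_comm]

lemma dst_triangle (A : Fin n → Fin n → Bool) (x y z : Fin n) :
    dst A x z ≤ dst A x y + dst A y z := by
  unfold dst
  refine (card_le_card ?_).trans (card_union_le _ _)
  intro c hc
  simp only [mem_filter, mem_univ, true_and, mem_union] at hc ⊢
  by_cases h : A x c = A y c
  · right
    rwa [← h]
  · left
    exact h

/-- The ball of radius `R` around the row `x`. -/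
def ball (A : Fin n → Fin n → Bool) (x : Fin n) (R : ℕ) : Finset (Fin n) :=
  univ.filter (fun y => dst A x y ≤ R)

/-- The set of ordered copies as a finset. -/
def copySet {k : ℕ} (H : Fin k → Fin k → Bool) (A : Fin n → Fin n → Bool) :
    Finset ((Fin k → Fin n) × (Fin k → Fin n)) :=
  univ.filter (fun p => StrictMono p.1 ∧ StrictMono p.2 ∧ ∀ i j, A (p.1 i) (p.2 j) = H i j)

lemma card_copySet {k : ℕ} (H : Fin k → Fin k → Bool) (A : Fin n → Fin n → Bool) :
    (copySet H A).card = copies H A := rfl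

/-- Samples that separate all rows contain a copy. -/
lemma good_sample_copy {k : ℕ} (hk : 1 ≤ k) (H : Fin k → Fin k → Bool)
    (A : Fin n → Fin n → Bool) {r p : ℕ} (hr : (p + 1) ^ (4 * k ^ 2) < r)
    (u : Fin r → Fin n) (T : Fin p → Fin n)
    (hgood : ∀ i j, i ≠ j → ∃ l, A (u i) (T l) ≠ A (u j) (T l)) :
    ∃ (a : Fin k → Fin r) (b : Fin k → Fin p), Function.Injective a ∧ Function.Injective b ∧
      (u ∘ a, T ∘ b) ∈ copySet H A := by
  classical
  have hinj : Function.Injective u := by
    intro i j hij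
    by_contra hne
    obtain ⟨l, hl⟩ := hgood i j hne
    exact hl (by rw [hij])
  have hU : (univ.image u).card = r := by
    rw [card_image_of_injective _ hinj]; simp
  have hT : (univ.image T).card ≤ p := by
    calc _ ≤ (univ : Finset (Fin p)).card := card_image_le
      _ = p := by simp
  obtain ⟨a', b', ha', hb', haU, hbT, hab⟩ := shatter_copy k hk H A (univ.image u) (univ.image T)
    (by
      intro x hx y hy hxy
      obtain ⟨i, -, rfl⟩ := mem_image.1 hx
      obtain ⟨j, -, rfl⟩ := mem_image.1 hy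
      have hij : i ≠ j := fun h => hxy (by rw [h])
      obtain ⟨l, hl⟩ := hgood i j hij
      exact ⟨T l, mem_image_of_mem _ (mem_univ _), hl⟩)
    (by
      rw [hU]
      exact lt_of_le_of_lt (Nat.pow_le_pow_left (by omega) _) hr)
  have h1 : ∀ i, ∃ x, u x = a' i := fun i => by
    obtain ⟨x, -, hx⟩ := mem_image.1 (haU i)
    exact ⟨x, hx⟩
  have h2 : ∀ j, ∃ y, T y = b' j := fun j => by
    obtain ⟨y, -, hy⟩ := mem_image.1 (hbT j)
    exact ⟨y, hy⟩
  choose a ha using h1
  choose b hb using h2
  refine ⟨a, b, ?_, ?_, ?_⟩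
  · intro i j hij
    apply ha'.injective
    rw [← ha i, ← ha j, hij]
  · intro i j hij
    apply hb'.injective
    rw [← hb i, ← hb j, hij]
  · have e1 : u ∘ a = a' := funext ha
    have e2 : T ∘ b = b' := funext hb
    rw [e1, e2]
    simp only [copySet, mem_filter, mem_univ, true_and]
    exact ⟨ha', hb', hab⟩

/-- Counting samples carrying a copy at given positions. -/
lemma count_at_positions {k : ℕ} (H : Fin k → Fin k → Bool) (A : Fin n → Fin n → Bool)
    (U : Finset (Fin n)) {r p : ℕ} (a : Fin k → Fin r) (b : Fin k → Fin p)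
    (ha : Function.Injective a) (hb : Function.Injective b) :
    ((Fintype.piFinset (fun _ : Fin r => U) ×ˢ (Fintype.piFinset (fun _ : Fin p => (univ : Finset (Fin n))))).filter
      (fun s => (s.1 ∘ a, s.2 ∘ b) ∈ copySet H A)).card
      ≤ copies H A * (U.card ^ (r - k) * n ^ (p - k)) := by
  classical
  let Ωr := Fintype.piFinset (fun _ : Fin r => U)
  let Ωp := Fintype.piFinset (fun _ : Fin p => (univ : Finset (Fin n)))
  have hsub : (Ωr ×ˢ Ωp).filter (fun s => (s.1 ∘ a, s.2 ∘ b) ∈ copySet H A) ⊆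
      (copySet H A).biUnion (fun q =>
        (Ωr.filter (fun f => ∀ j, f (a j) = q.1 j)) ×ˢ (Ωp.filter (fun f => ∀ j, f (b j) = q.2 j))) := by
    intro s hs
    simp only [mem_filter, mem_product] at hs
    simp only [mem_biUnion, mem_product, mem_filter]
    exact ⟨_, hs.2, ⟨hs.1.1, fun j => rfl⟩, ⟨hs.1.2, fun j => rfl⟩⟩
  calc _ ≤ ((copySet H A).biUnion (fun q =>
        (Ωr.filter (fun f => ∀ j, f (a j) = q.1 j)) ×ˢ (Ωp.filter (fun f => ∀ j, f (b j) = q.2 j)))).card :=
        card_le_card hsub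
    _ ≤ ∑ q ∈ copySet H A, ((Ωr.filter (fun f => ∀ j, f (a j) = q.1 j)) ×ˢ
          (Ωp.filter (fun f => ∀ j, f (b j) = q.2 j))).card := card_biUnion_le
    _ ≤ ∑ _q ∈ copySet H A, (U.card ^ (r - k) * n ^ (p - k)) := by
        apply sum_le_sum
        intro q _
        rw [card_product]
        apply Nat.mul_le_mul
        · have := card_fiber_le (fun _ : Fin r => U) U.card (fun _ => le_rfl) a ha q.1
          simpa using this
        · have := card_fiber_le (fun _ : Fin p => (univ : Finset (Fin n))) n (by simp) b hb q.2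
          simpa [Ωp] using this
    _ = _ := by
        rw [sum_const, smul_eq_mul, card_copySet]

/-- The fraction of samples with two equal-looking rows is small (one pair of positions). -/
lemma count_bad_pair (A : Fin n → Fin n → Bool) (U : Finset (Fin n)) {r p : ℕ} (R g c : ℕ)
    (i j : Fin r) (hij : i ≠ j) (hrpos : 2 ≤ r)
    (hclose : ∀ y ∈ U, c * (ball A y R).card ≤ U.card)
    (hg : n ≤ g + R + 1)
    (hc : 1 ≤ c) :
    c * ((Fintype.piFinset (fun _ : Fin r => U) ×ˢ (Fintype.piFinset (fun _ : Fin p => (univ : Finset (Fin n))))).filter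
      (fun s => ∀ l, A (s.1 i) (s.2 l) = A (s.1 j) (s.2 l))).card
      ≤ U.card ^ r * n ^ p + c * (U.card ^ r * g ^ p) := by
  classical
  let Ωr := Fintype.piFinset (fun _ : Fin r => U)
  let Ωp := Fintype.piFinset (fun _ : Fin p => (univ : Finset (Fin n)))
  let Cl := Ωr.filter (fun u => dst A (u i) (u j) ≤ R)
  -- close samples
  have hCl : c * Cl.card ≤ U.card ^ r := by
    classical
    let pairs := U.biUnion (fun y => (ball A y R).image (fun z => (y, z)))
    let v : Fin 2 → Fin r := ![i, j]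
    have hv : Function.Injective v := by
      intro x y hxy
      fin_cases x <;> fin_cases y <;> simp_all [v, eq_comm]
    have hsub : Cl ⊆ ((U ×ˢ U).filter (fun q => dst A q.1 q.2 ≤ R)).biUnion (fun q =>
        Ωr.filter (fun f => ∀ l, f (v l) = ![q.1, q.2] l)) := by
      intro u hu
      simp only [Cl, Ωr, mem_filter, Fintype.mem_piFinset] at hu
      simp only [mem_biUnion, mem_filter, mem_product]
      refine ⟨(u i, u j), ⟨⟨hu.1 i, hu.1 j⟩, hu.2⟩, ?_, ?_⟩
      · simpa [Ωr] using hu.1
      · intro l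
        fin_cases l <;> simp [v]
    have hfib : ∀ q : Fin n × Fin n, (Ωr.filter (fun f => ∀ l, f (v l) = ![q.1, q.2] l)).card
        ≤ U.card ^ (r - 2) := by
      intro q
      have := card_fiber_le (fun _ : Fin r => U) U.card (fun _ => le_rfl) v hv ![q.1, q.2]
      simpa using this
    have hpairs : c * ((U ×ˢ U).filter (fun q => dst A q.1 q.2 ≤ R)).card ≤ U.card ^ 2 := by
      have h1 : ((U ×ˢ U).filter (fun q => dst A q.1 q.2 ≤ R)) ⊆
          U.biUnion (fun y => (ball A y R).image (fun z => (y, z))) := by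
        intro q hq
        simp only [mem_filter, mem_product] at hq
        simp only [mem_biUnion, mem_image]
        exact ⟨q.1, hq.1.1, q.2, by simp [ball, hq.2], rfl⟩
      have h2 : (U.biUnion (fun y => (ball A y R).image (fun z => (y, z)))).card ≤
          ∑ y ∈ U, (ball A y R).card := by
        refine card_biUnion_le.trans (sum_le_sum fun y _ => ?_)
        exact card_image_le
      calc _ ≤ c * ∑ y ∈ U, (ball A y R).card := by
            gcongr
            exact (card_le_card h1).trans h2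
        _ = ∑ y ∈ U, c * (ball A y R).card := by rw [mul_sum]
        _ ≤ ∑ _y ∈ U, U.card := sum_le_sum hclose
        _ = U.card ^ 2 := by simp [sq]
    calc c * Cl.card ≤ c * ∑ q ∈ (U ×ˢ U).filter (fun q => dst A q.1 q.2 ≤ R),
          (Ωr.filter (fun f => ∀ l, f (v l) = ![q.1, q.2] l)).card := by
          gcongr
          exact (card_le_card hsub).trans card_biUnion_le
      _ ≤ c * ∑ _q ∈ (U ×ˢ U).filter (fun q => dst A q.1 q.2 ≤ R), U.card ^ (r - 2) := by
          gcongr with q _
          exact hfib q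
      _ = (c * ((U ×ˢ U).filter (fun q => dst A q.1 q.2 ≤ R)).card) * U.card ^ (r - 2) := by
          rw [sum_const, smul_eq_mul]; ring
      _ ≤ U.card ^ 2 * U.card ^ (r - 2) := by gcongr
      _ = U.card ^ r := by
          rw [← pow_add]; congr 1; omega
  -- far samples
  have hfar : ∀ u : Fin r → Fin n, R < dst A (u i) (u j) →
      (Ωp.filter (fun T => ∀ l, A (u i) (T l) = A (u j) (T l))).card ≤ g ^ p := by
    intro u hu
    let Ag := univ.filter (fun c => A (u i) c = A (u j) c)
    have hAg : Ag.card ≤ g := by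
      have h1 : Ag.card + dst A (u i) (u j) = n := by
        have := card_filter_add_card_filter_not (s := (univ : Finset (Fin n)))
          (fun c => A (u i) c = A (u j) c)
        simpa [dst, Ag] using this
      omega
    have hsub : Ωp.filter (fun T => ∀ l, A (u i) (T l) = A (u j) (T l)) ⊆
        Fintype.piFinset (fun _ : Fin p => Ag) := by
      intro T hT
      simp only [mem_filter] at hT
      simp only [Fintype.mem_piFinset, Ag, mem_filter, mem_univ, true_and]
      exact hT.2
    calc _ ≤ (Fintype.piFinset (fun _ : Fin p => Ag)).card := card_le_card hsub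
      _ = Ag.card ^ p := by simp
      _ ≤ g ^ p := Nat.pow_le_pow_left hAg _
  have hΩp : Ωp.card = n ^ p := by simp [Ωp]
  have hΩr : Ωr.card = U.card ^ r := by simp [Ωr]
  have hsplit : (Ωr ×ˢ Ωp).filter (fun s => ∀ l, A (s.1 i) (s.2 l) = A (s.1 j) (s.2 l)) ⊆
      (Cl ×ˢ Ωp) ∪ ((Ωr ×ˢ Ωp).filter (fun s => R < dst A (s.1 i) (s.1 j) ∧
        ∀ l, A (s.1 i) (s.2 l) = A (s.1 j) (s.2 l))) := by
    intro s hs
    simp only [mem_filter, mem_product] at hs
    simp only [mem_union, mem_product, mem_filter, Cl]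
    by_cases h : dst A (s.1 i) (s.1 j) ≤ R
    · exact Or.inl ⟨⟨hs.1.1, h⟩, hs.1.2⟩
    · exact Or.inr ⟨hs.1, by omega, hs.2⟩
  have hfarcard : ((Ωr ×ˢ Ωp).filter (fun s => R < dst A (s.1 i) (s.1 j) ∧
        ∀ l, A (s.1 i) (s.2 l) = A (s.1 j) (s.2 l))).card ≤ U.card ^ r * g ^ p := by
    have : ((Ωr ×ˢ Ωp).filter (fun s => R < dst A (s.1 i) (s.1 j) ∧
        ∀ l, A (s.1 i) (s.2 l) = A (s.1 j) (s.2 l))) ⊆
        Ωr.biUnion (fun u => if R < dst A (u i) (u j) then
          (Ωp.filter (fun T => ∀ l, A (u i) (T l) = A (u j) (T l))).image (fun T => (u, T)) else ∅) := by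
      intro s hs
      simp only [mem_filter, mem_product] at hs
      simp only [mem_biUnion]
      refine ⟨s.1, hs.1.1, ?_⟩
      rw [if_pos hs.2.1]
      simp only [mem_image, mem_filter]
      exact ⟨s.2, ⟨hs.1.2, hs.2.2⟩, rfl⟩
    refine (card_le_card this).trans (card_biUnion_le.trans ?_)
    calc _ ≤ ∑ _u ∈ Ωr, g ^ p := by
          apply sum_le_sum
          intro u _
          by_cases hu : R < dst A (u i) (u j)
          · rw [if_pos hu]
            exact card_image_le.trans (hfar u hu)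
          · rw [if_neg hu]; simp
      _ = _ := by rw [sum_const, smul_eq_mul, hΩr]
  calc _ ≤ c * ((Cl ×ˢ Ωp).card + ((Ωr ×ˢ Ωp).filter (fun s => R < dst A (s.1 i) (s.1 j) ∧
        ∀ l, A (s.1 i) (s.2 l) = A (s.1 j) (s.2 l))).card) := by
        gcongr
        exact (card_le_card hsplit).trans (card_union_le _ _)
    _ ≤ c * (Cl.card * n ^ p + U.card ^ r * g ^ p) := by
        rw [card_product, hΩp]
        gcongr
    _ = (c * Cl.card) * n ^ p + c * (U.card ^ r * g ^ p) := by ring
    _ ≤ _ := by gcongr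

/-- Main sampling bound. -/
theorem sample_bound {k : ℕ} (hk : 1 ≤ k) (H : Fin k → Fin k → Bool) (A : Fin n → Fin n → Bool)
    (U : Finset (Fin n)) (r p R g : ℕ) (hr : (p + 1) ^ (4 * k ^ 2) < r) (hkr : k ≤ r) (hkp : k ≤ p)
    (hr2 : 2 ≤ r)
    (hclose : ∀ y ∈ U, 4 * r ^ 2 * (ball A y R).card ≤ U.card)
    (hg : n ≤ g + R + 1) (hgp : 4 * r ^ 2 * g ^ p ≤ n ^ p) (hUpos : 0 < U.card) (hn : 0 < n) :
    (U.card * n) ^ k ≤ 2 * (r * p) ^ k * copies H A := by
  classical
  let Ωr := Fintype.piFinset (fun _ : Fin r => U)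
  let Ωp := Fintype.piFinset (fun _ : Fin p => (univ : Finset (Fin n)))
  let Ω := Ωr ×ˢ Ωp
  have hΩ : Ω.card = U.card ^ r * n ^ p := by simp [Ω, Ωr, Ωp]
  let Bad := Ω.filter (fun s => ∃ i j, i ≠ j ∧ ∀ l, A (s.1 i) (s.2 l) = A (s.1 j) (s.2 l))
  let Gd := Ω.filter (fun s => ∀ i j, i ≠ j → ∃ l, A (s.1 i) (s.2 l) ≠ A (s.1 j) (s.2 l))
  have hcover : Ω.card ≤ Gd.card + Bad.card := by
    rw [← card_union_of_disjoint]
    · apply card_le_card
      intro s hs
      simp only [mem_union, Gd, Bad, mem_filter]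
      by_cases h : ∀ i j, i ≠ j → ∃ l, A (s.1 i) (s.2 l) ≠ A (s.1 j) (s.2 l)
      · exact Or.inl ⟨hs, h⟩
      · push Not at h
        exact Or.inr ⟨hs, h⟩
    · rw [disjoint_left]
      intro s hs hs'
      simp only [Gd, Bad, mem_filter] at hs hs'
      obtain ⟨i, j, hij, hl⟩ := hs'.2
      obtain ⟨l, hl'⟩ := hs.2 i j hij
      exact hl' (hl l)
  -- bad samples
  have hc : 1 ≤ 4 * r ^ 2 := by
    have : 1 ≤ r ^ 2 := Nat.one_le_pow _ _ (by omega)
    omega
  have hBad : 2 * Bad.card ≤ Ω.card := by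
    have hsub : Bad ⊆ (univ.filter (fun q : Fin r × Fin r => q.1 ≠ q.2)).biUnion (fun q =>
        Ω.filter (fun s => ∀ l, A (s.1 q.1) (s.2 l) = A (s.1 q.2) (s.2 l))) := by
      intro s hs
      simp only [Bad, mem_filter] at hs
      obtain ⟨hs1, i, j, hij, hl⟩ := hs
      simp only [mem_biUnion, mem_filter, mem_univ, true_and]
      exact ⟨(i, j), hij, hs1, hl⟩
    have h1 : ∀ q ∈ univ.filter (fun q : Fin r × Fin r => q.1 ≠ q.2),
        4 * r ^ 2 * (Ω.filter (fun s => ∀ l, A (s.1 q.1) (s.2 l) = A (s.1 q.2) (s.2 l))).card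
          ≤ 2 * Ω.card := by
      intro q hq
      simp only [mem_filter, mem_univ, true_and] at hq
      have := count_bad_pair (p := p) A U R g (4 * r ^ 2) q.1 q.2 hq hr2 hclose hg hc
      calc _ ≤ U.card ^ r * n ^ p + 4 * r ^ 2 * (U.card ^ r * g ^ p) := this
        _ = U.card ^ r * n ^ p + U.card ^ r * (4 * r ^ 2 * g ^ p) := by ring
        _ ≤ U.card ^ r * n ^ p + U.card ^ r * n ^ p := by gcongr
        _ = 2 * Ω.card := by rw [hΩ]; ring
    have h2 : 4 * r ^ 2 * Bad.card ≤ r ^ 2 * (2 * Ω.card) := by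
      calc _ ≤ 4 * r ^ 2 * ∑ q ∈ univ.filter (fun q : Fin r × Fin r => q.1 ≠ q.2),
            (Ω.filter (fun s => ∀ l, A (s.1 q.1) (s.2 l) = A (s.1 q.2) (s.2 l))).card := by
            gcongr
            exact (card_le_card hsub).trans card_biUnion_le
        _ = ∑ q ∈ univ.filter (fun q : Fin r × Fin r => q.1 ≠ q.2), 4 * r ^ 2 *
            (Ω.filter (fun s => ∀ l, A (s.1 q.1) (s.2 l) = A (s.1 q.2) (s.2 l))).card := by
            rw [mul_sum]
        _ ≤ ∑ _q ∈ univ.filter (fun q : Fin r × Fin r => q.1 ≠ q.2), 2 * Ω.card :=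
            sum_le_sum h1
        _ = (univ.filter (fun q : Fin r × Fin r => q.1 ≠ q.2)).card * (2 * Ω.card) := by
            rw [sum_const, smul_eq_mul]
        _ ≤ (univ : Finset (Fin r × Fin r)).card * (2 * Ω.card) := by
            gcongr
            exact filter_subset _ _
        _ = r ^ 2 * (2 * Ω.card) := by simp [sq]
    have hr2pos : 0 < r ^ 2 := by positivity
    have h3 : r ^ 2 * (2 * (2 * Bad.card)) ≤ r ^ 2 * (2 * Ω.card) := by
      calc _ = 4 * r ^ 2 * Bad.card := by ring
        _ ≤ _ := h2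
    have h4 := Nat.le_of_mul_le_mul_left h3 hr2pos
    omega
  -- good samples
  have hGood : Gd.card ≤ (r * p) ^ k * (copies H A * (U.card ^ (r - k) * n ^ (p - k))) := by
    let Pos := (univ : Finset ((Fin k → Fin r) × (Fin k → Fin p))).filter
      (fun q => Function.Injective q.1 ∧ Function.Injective q.2)
    have hsub : Gd ⊆ Pos.biUnion (fun q =>
        Ω.filter (fun s => (s.1 ∘ q.1, s.2 ∘ q.2) ∈ copySet H A)) := by
      intro s hs
      simp only [Gd, mem_filter] at hs
      obtain ⟨a, b, ha, hb, hab⟩ := good_sample_copy hk H A hr s.1 s.2 hs.2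
      simp only [mem_biUnion, mem_filter, Pos, mem_univ, true_and]
      exact ⟨(a, b), ⟨ha, hb⟩, hs.1, hab⟩
    calc _ ≤ ∑ q ∈ Pos, (Ω.filter (fun s => (s.1 ∘ q.1, s.2 ∘ q.2) ∈ copySet H A)).card :=
          (card_le_card hsub).trans card_biUnion_le
      _ ≤ ∑ _q ∈ Pos, (copies H A * (U.card ^ (r - k) * n ^ (p - k))) := by
          apply sum_le_sum
          intro q hq
          simp only [Pos, mem_filter, mem_univ, true_and] at hq
          exact count_at_positions H A U q.1 q.2 hq.1 hq.2
      _ = Pos.card * (copies H A * (U.card ^ (r - k) * n ^ (p - k))) := by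
          rw [sum_const, smul_eq_mul]
      _ ≤ (univ : Finset ((Fin k → Fin r) × (Fin k → Fin p))).card *
            (copies H A * (U.card ^ (r - k) * n ^ (p - k))) := by
          gcongr
          exact filter_subset _ _
      _ = _ := by
          simp [mul_pow]
  have hmain : U.card ^ r * n ^ p ≤
      2 * ((r * p) ^ k * (copies H A * (U.card ^ (r - k) * n ^ (p - k)))) := by
    rw [← hΩ]
    omega
  have hpos : 0 < U.card ^ (r - k) * n ^ (p - k) := by positivity
  apply Nat.le_of_mul_le_mul_right _ hpos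
  calc (U.card * n) ^ k * (U.card ^ (r - k) * n ^ (p - k))
      = (U.card ^ k * U.card ^ (r - k)) * (n ^ k * n ^ (p - k)) := by rw [mul_pow]; ring
    _ = U.card ^ r * n ^ p := by
        rw [← pow_add, ← pow_add]
        congr 2 <;> omega
    _ ≤ _ := hmain
    _ = _ := by ring

end Vale.Agent.Lib.P037_helper52
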